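import Mathlib

/-! Averages over finite types and over lists of independent uniform elements. -/

set_option autoImplicit false

namespace Crest.Agent.RS

open Finset

/-- average over a finite type -/
noncomputable def avg {α : Type*} [Fintype α] (f : α → ℝ) : ℝ :=
  (∑ a, f a) / (Fintype.card α : ℝ)

/-- average of `g` over lists of `M` independent uniform elements of `α` -/
noncomputable def lavg (α : Type*) [Fintype α] : (M : ℕ) → (List α → ℝ) → ℝ
  | 0, g => g []
  | M + 1, g => avg (fun a : α => lavg α M (fun L => g (a :: L)))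

section avg
variable {α β : Type*} [Fintype α] [Fintype β]

theorem avg_congr {f g : α → ℝ} (h : ∀ a, f a = g a) : avg f = avg g := by
  rw [funext h]

theorem avg_mono {f g : α → ℝ} (h : ∀ a, f a ≤ g a) : avg f ≤ avg g := by
  unfold avg
  gcongr with a
  exact h a

theorem avg_nonneg {f : α → ℝ} (h : ∀ a, 0 ≤ f a) : 0 ≤ avg f :=
  div_nonneg (Finset.sum_nonneg fun a _ => h a) (Nat.cast_nonneg _)

theorem avg_zero : avg (fun _ : α => (0 : ℝ)) = 0 := by
  simp [avg]

theorem avg_const [Nonempty α] (c : ℝ) : avg (fun _ : α => c) = c := by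
  unfold avg
  rw [Finset.sum_const, Finset.card_univ, nsmul_eq_mul]
  have : (Fintype.card α : ℝ) ≠ 0 := by exact_mod_cast Fintype.card_ne_zero
  field_simp

theorem avg_le_const [Nonempty α] {f : α → ℝ} {c : ℝ} (h : ∀ a, f a ≤ c) : avg f ≤ c :=
  (avg_mono h).trans_eq (avg_const c)

theorem const_le_avg [Nonempty α] {f : α → ℝ} {c : ℝ} (h : ∀ a, c ≤ f a) : c ≤ avg f :=
  (avg_const c).symm.trans_le (avg_mono h)

theorem avg_add (f g : α → ℝ) : avg (fun a => f a + g a) = avg f + avg g := by
  unfold avg
  rw [Finset.sum_add_distrib, add_div]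

theorem avg_sub (f g : α → ℝ) : avg (fun a => f a - g a) = avg f - avg g := by
  unfold avg
  rw [Finset.sum_sub_distrib, sub_div]

theorem avg_mul_left (c : ℝ) (f : α → ℝ) : avg (fun a => c * f a) = c * avg f := by
  unfold avg
  rw [← Finset.mul_sum, mul_div_assoc]

theorem avg_mul_right (c : ℝ) (f : α → ℝ) : avg (fun a => f a * c) = avg f * c := by
  unfold avg
  rw [← Finset.sum_mul, mul_div_right_comm]

theorem avg_sum {ι : Type*} (s : Finset ι) (f : ι → α → ℝ) :
    avg (fun a => ∑ i ∈ s, f i a) = ∑ i ∈ s, avg (f i) := by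
  unfold avg
  rw [Finset.sum_comm, Finset.sum_div]

theorem avg_comm (f : α → β → ℝ) :
    avg (fun a => avg (fun b => f a b)) = avg (fun b => avg (fun a => f a b)) := by
  unfold avg
  rw [← Finset.sum_div, ← Finset.sum_div, Finset.sum_comm, div_right_comm]

theorem avg_equiv (e : α ≃ β) (f : β → ℝ) : avg (fun a => f (e a)) = avg f := by
  unfold avg
  rw [Equiv.sum_comp e f, Fintype.card_congr e]

theorem avg_prod (f : α × β → ℝ) : avg f = avg (fun a => avg (fun b => f (a, b))) := by
  unfold avg
  rw [← Finset.sum_div, Fintype.sum_prod_type, Fintype.card_prod, div_div]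
  push_cast
  rw [mul_comm]

theorem avg_unique [Unique α] (f : α → ℝ) : avg f = f default := by
  unfold avg
  simp

/-- Jensen / Cauchy-Schwarz for averages. -/
theorem avg_sq_le (f : α → ℝ) : (avg f) ^ 2 ≤ avg (fun a => f a ^ 2) := by
  rcases isEmpty_or_nonempty α with h | h
  · simp [avg]
  · have h1 : 0 ≤ avg (fun a => (f a - avg f) ^ 2) := avg_nonneg fun a => sq_nonneg _
    have h2 : avg (fun a => (f a - avg f) ^ 2) = avg (fun a => f a ^ 2) - (avg f) ^ 2 := by
      have : ∀ a, (f a - avg f) ^ 2 = f a ^ 2 - (2 * avg f) * f a + (avg f) ^ 2 := fun a => by ring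
      rw [avg_congr this, avg_add, avg_sub, avg_mul_left, avg_const]
      ring
    linarith

end avg

section lavg
variable {α β : Type*} [Fintype α] [Fintype β]

@[simp] theorem lavg_zero (g : List α → ℝ) : lavg α 0 g = g [] := rfl

theorem lavg_succ (M : ℕ) (g : List α → ℝ) :
    lavg α (M + 1) g = avg (fun a : α => lavg α M (fun L => g (a :: L))) := rfl

theorem lavg_congr_length {M : ℕ} {g h : List α → ℝ} (H : ∀ L : List α, L.length = M → g L = h L) :
    lavg α M g = lavg α M h := by
  induction M generalizing g h with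
  | zero => exact H [] rfl
  | succ M ih =>
    rw [lavg_succ, lavg_succ]
    refine avg_congr fun a => ih fun L hL => H _ ?_
    simp [hL]

theorem lavg_congr {M : ℕ} {g h : List α → ℝ} (H : ∀ L : List α, g L = h L) :
    lavg α M g = lavg α M h := lavg_congr_length fun L _ => H L

theorem lavg_mono_length {M : ℕ} {g h : List α → ℝ} (H : ∀ L : List α, L.length = M → g L ≤ h L) :
    lavg α M g ≤ lavg α M h := by
  induction M generalizing g h with
  | zero => exact H [] rfl
  | succ M ih =>
    rw [lavg_succ, lavg_succ]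
    refine avg_mono fun a => ih fun L hL => H _ ?_
    simp [hL]

theorem lavg_mono {M : ℕ} {g h : List α → ℝ} (H : ∀ L : List α, g L ≤ h L) :
    lavg α M g ≤ lavg α M h := lavg_mono_length fun L _ => H L

theorem lavg_zero_fun (M : ℕ) : lavg α M (fun _ => (0 : ℝ)) = 0 := by
  induction M with
  | zero => rfl
  | succ M ih => rw [lavg_succ, avg_congr (fun _ => ih), avg_zero]

theorem lavg_nonneg {M : ℕ} {g : List α → ℝ} (H : ∀ L, 0 ≤ g L) : 0 ≤ lavg α M g :=
  (lavg_zero_fun M).symm.trans_le (lavg_mono H)

theorem lavg_const [Nonempty α] (M : ℕ) (c : ℝ) : lavg α M (fun _ => c) = c := by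
  induction M with
  | zero => rfl
  | succ M ih => rw [lavg_succ, avg_congr (fun _ => ih), avg_const]

theorem lavg_le_const [Nonempty α] {M : ℕ} {g : List α → ℝ} {c : ℝ}
    (H : ∀ L : List α, L.length = M → g L ≤ c) : lavg α M g ≤ c :=
  (lavg_mono_length H).trans_eq (lavg_const M c)

theorem const_le_lavg [Nonempty α] {M : ℕ} {g : List α → ℝ} {c : ℝ}
    (H : ∀ L : List α, L.length = M → c ≤ g L) : c ≤ lavg α M g :=
  (lavg_const M c).symm.trans_le (lavg_mono_length H)

theorem lavg_add (M : ℕ) (g h : List α → ℝ) :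
    lavg α M (fun L => g L + h L) = lavg α M g + lavg α M h := by
  induction M generalizing g h with
  | zero => rfl
  | succ M ih =>
    rw [lavg_succ, lavg_succ, lavg_succ, ← avg_add]
    exact avg_congr fun a => ih _ _

theorem lavg_mul_left (M : ℕ) (c : ℝ) (g : List α → ℝ) :
    lavg α M (fun L => c * g L) = c * lavg α M g := by
  induction M generalizing g with
  | zero => rfl
  | succ M ih =>
    rw [lavg_succ, lavg_succ, ← avg_mul_left]
    exact avg_congr fun a => ih _

theorem lavg_mul_right (M : ℕ) (c : ℝ) (g : List α → ℝ) :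
    lavg α M (fun L => g L * c) = lavg α M g * c := by
  rw [lavg_congr (h := fun L => c * g L) (fun L => mul_comm _ _), lavg_mul_left, mul_comm]

theorem lavg_sub (M : ℕ) (g h : List α → ℝ) :
    lavg α M (fun L => g L - h L) = lavg α M g - lavg α M h := by
  have : lavg α M (fun L => g L - h L) = lavg α M (fun L => g L + (-1) * h L) :=
    lavg_congr fun L => by ring
  rw [this, lavg_add, lavg_mul_left]
  ring

theorem lavg_sum {ι : Type*} (s : Finset ι) (M : ℕ) (f : ι → List α → ℝ) :
    lavg α M (fun L => ∑ i ∈ s, f i L) = ∑ i ∈ s, lavg α M (f i) := by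
  induction M generalizing f with
  | zero => rfl
  | succ M ih =>
    rw [lavg_succ, avg_congr (fun a => ih (fun i L => f i (a :: L))), avg_sum]
    rfl

theorem lavg_avg_comm (M : ℕ) (f : List α → β → ℝ) :
    lavg α M (fun L => avg (fun b => f L b)) = avg (fun b => lavg α M (fun L => f L b)) := by
  induction M generalizing f with
  | zero => rfl
  | succ M ih =>
    rw [lavg_succ, avg_congr (fun a => ih (fun L b => f (a :: L) b)), avg_comm]
    rfl

theorem lavg_comm (M M' : ℕ) (f : List α → List β → ℝ) :
    lavg α M (fun L => lavg β M' (fun L' => f L L')) =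
      lavg β M' (fun L' => lavg α M (fun L => f L L')) := by
  induction M generalizing f with
  | zero => rfl
  | succ M ih =>
    rw [lavg_succ, avg_congr (fun a => ih (fun L L' => f (a :: L) L')), ← lavg_avg_comm]
    rfl

theorem lavg_append (m s : ℕ) (g : List α → ℝ) :
    lavg α (m + s) g = lavg α m (fun L => lavg α s (fun L' => g (L ++ L'))) := by
  induction m generalizing g with
  | zero => simp
  | succ m ih =>
    rw [Nat.add_right_comm, lavg_succ, lavg_succ]
    exact avg_congr fun a => ih _

theorem lavg_one (g : List α → ℝ) : lavg α 1 g = avg (fun a => g [a]) := rfl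

theorem lavg_snoc (M : ℕ) (g : List α → ℝ) :
    lavg α (M + 1) g = lavg α M (fun L => avg (fun a => g (L ++ [a]))) := by
  rw [lavg_append]
  rfl

theorem lavg_take [Nonempty α] {m M : ℕ} (h : m ≤ M) (g : List α → ℝ) :
    lavg α M (fun L => g (L.take m)) = lavg α m g := by
  obtain ⟨s, rfl⟩ := Nat.exists_eq_add_of_le h
  rw [lavg_append]
  refine lavg_congr_length fun L hL => ?_
  rw [lavg_congr (h := fun _ => g L) (fun L' => by rw [List.take_left' hL]), lavg_const]

/-- removing the coordinate `i` -/
theorem lavg_eraseIdx {M i : ℕ} (hi : i < M) (g : α → List α → ℝ) (d : α) :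
    lavg α M (fun L => g (L.getD i d) (L.eraseIdx i)) =
      avg (fun a => lavg α (M - 1) (fun L => g a L)) := by
  induction i generalizing M g with
  | zero =>
    obtain ⟨M, rfl⟩ : ∃ M', M = M' + 1 := ⟨M - 1, by omega⟩
    rw [lavg_succ]
    simp
  | succ i ih =>
    obtain ⟨M, rfl⟩ : ∃ M', M = M' + 1 := ⟨M - 1, by omega⟩
    have h1 : i < M := by omega
    rw [lavg_succ]
    have h2 : ∀ b : α, lavg α M (fun L => g ((b :: L).getD (i + 1) d) ((b :: L).eraseIdx (i + 1)))
        = avg (fun a => lavg α (M - 1) (fun L => g a (b :: L))) := by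
      intro b
      have := ih h1 (fun a L => g a (b :: L))
      simpa using this
    rw [avg_congr h2, avg_comm]
    refine avg_congr fun a => ?_
    obtain ⟨M', rfl⟩ : ∃ M', M = M' + 1 := ⟨M - 1, by omega⟩
    rfl

/-- `lavg` as an average over functions. -/
theorem lavg_eq_avg_fin (M : ℕ) (g : List α → ℝ) :
    lavg α M g = avg (fun F : Fin M → α => g (List.ofFn F)) := by
  induction M generalizing g with
  | zero =>
    rw [avg_unique]
    simp
  | succ M ih =>
    rw [lavg_succ, ← avg_equiv (Fin.consEquiv (fun _ => α)), avg_prod]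
    refine avg_congr fun a => ?_
    rw [ih]
    refine avg_congr fun F => ?_
    simp [Fin.consEquiv, List.ofFn_succ]

/-- pushing forward a list average along an equivalence -/
theorem lavg_map_equiv (e : α ≃ β) (M : ℕ) (g : List β → ℝ) :
    lavg α M (fun L => g (L.map e)) = lavg β M g := by
  induction M generalizing g with
  | zero => rfl
  | succ M ih =>
    rw [lavg_succ, lavg_succ, ← avg_equiv e]
    exact avg_congr fun a => ih (fun L => g (e a :: L))

/-- pushing forward when single-element averages agree -/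
theorem lavg_map_congr {γ : Type*} (φ : α → γ) (ψ : β → γ)
    (H : ∀ h : γ → ℝ, avg (fun a => h (φ a)) = avg (fun b => h (ψ b))) (M : ℕ) (g : List γ → ℝ) :
    lavg α M (fun L => g (L.map φ)) = lavg β M (fun L => g (L.map ψ)) := by
  induction M generalizing g with
  | zero => rfl
  | succ M ih =>
    rw [lavg_succ, lavg_succ]
    have h1 : ∀ a : α, lavg α M (fun L => g ((a :: L).map φ)) =
        (fun c => lavg β M (fun L => g (c :: L.map ψ))) (φ a) := fun a => by
      simpa using ih (fun L => g (φ a :: L))
    rw [avg_congr h1, H (fun c => lavg β M (fun L => g (c :: L.map ψ)))]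
    rfl

theorem lavg_sq_le (M : ℕ) (f : List α → ℝ) : (lavg α M f) ^ 2 ≤ lavg α M (fun L => f L ^ 2) := by
  induction M generalizing f with
  | zero => exact le_rfl
  | succ M ih =>
    rw [lavg_succ, lavg_succ]
    exact (avg_sq_le _).trans (avg_mono fun a => ih _)

end lavg

end Crest.Agent.RS
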