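import Mathlib
import Crest.Prelude.Def_RandomSAT
import Crest.Agent.RS.Avg

/-!
Row 153, S0217 (and the level version needed for S0218). Formulas are lists of general clauses
(lists of literals); `Alive l F`: some assignment violates at most `l` clauses of `F`.
-/

set_option autoImplicit false

namespace Crest.Agent.RS

open Finset Crest.ProbabilityR.RandomSAT

/-- literals on `n` variables: `(x, b)` is the literal "variable `x` has value `b`". -/
abbrev Lit (n : ℕ) := Fin n × Bool

/-- general clause -/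
abbrev GC (n : ℕ) := List (Lit n)

/-- the assignment `σ` satisfies the general clause `c` -/
def GSat {n : ℕ} (σ : Fin n → Bool) (c : GC n) : Prop := ∃ y ∈ c, σ y.1 = y.2

instance {n : ℕ} (σ : Fin n → Bool) : DecidablePred (GSat σ) := fun c => by
  unfold GSat; infer_instance

/-- number of violated clauses -/
def viol {n : ℕ} (F : List (GC n)) (σ : Fin n → Bool) : ℕ := F.countP (fun c => ¬ GSat σ c)

/-- some assignment violates at most `l` clauses -/
def Alive {n : ℕ} (l : ℕ) (F : List (GC n)) : Prop := ∃ σ, viol F σ ≤ l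

/-- some assignment satisfying the (hard) literal `y` violates at most `l` clauses -/
def AliveLit {n : ℕ} (l : ℕ) (F : List (GC n)) (y : Lit n) : Prop :=
  ∃ σ : Fin n → Bool, σ y.1 = y.2 ∧ viol F σ ≤ l

/-- the minimal number of violated clauses is exactly `l` -/
def Crit {n : ℕ} (l : ℕ) (F : List (GC n)) : Prop := Alive l F ∧ ∀ σ, l ≤ viol F σ

/-- a clause of the prelude as a general clause -/
def toGC {k n : ℕ} (c : Clause k n) : GC n := List.ofFn (fun i => (c.1.1 i, c.2 i))

/-- shift the variables by one (variable `0` becomes fresh) -/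
def up {n : ℕ} (c : GC n) : GC (n + 1) := c.map (fun y => (y.1.succ, y.2))

open Classical in
/-- number of times `m < M` at which the formula `E + F_m` is alive but `E + F_m + (y hard)` is not -/
noncomputable def cntLit {n : ℕ} (l : ℕ) (E F : List (GC n)) (y : Lit n) (M : ℕ) : ℕ :=
  ((Finset.range M).filter (fun m => Alive l (E ++ F.take m) ∧ ¬ AliveLit l (E ++ F.take m) y)).card

open Classical in
/-- number of times `m < M` at which the formula `E + F_m` is alive but `E + F_m + D` is not -/
noncomputable def cntCl {n : ℕ} (l : ℕ) (E F : List (GC n)) (D : GC n) (M : ℕ) : ℕ :=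
  ((Finset.range M).filter (fun m => Alive l (E ++ F.take m) ∧ ¬ Alive l (D :: (E ++ F.take m)))).card

/-- `V`: `n + 1` variables, `i` initial `κ`-clauses avoiding variable `0`, stream of `κ+1`-clauses,
second moment of the count of the literal `(0, true)`. -/
noncomputable def Vq (κ n i M l : ℕ) : ℝ :=
  lavg (Clause κ n) i (fun E => lavg (Clause (κ + 1) (n + 1)) M (fun F =>
    ((cntLit l (E.map (fun c => up (toGC c))) (F.map toGC) (0, true) M : ℕ) : ℝ) ^ 2))

/-- `U`: `n` variables, `r` initial `κ`-clauses, stream of `κ+1`-clauses, second moment of the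
count of one further uniform `κ`-clause `D`. -/
noncomputable def Uq (κ n r M l : ℕ) : ℝ :=
  lavg (Clause κ n) r (fun E => avg (fun D : Clause κ n => lavg (Clause (κ + 1) n) M (fun F =>
    ((cntCl l (E.map toGC) (F.map toGC) (toGC D) M : ℕ) : ℝ) ^ 2)))

section basic
variable {n : ℕ}

@[simp] theorem viol_nil (σ : Fin n → Bool) : viol [] σ = 0 := rfl

theorem viol_append (F G : List (GC n)) (σ : Fin n → Bool) :
    viol (F ++ G) σ = viol F σ + viol G σ := List.countP_append

theorem viol_cons (D : GC n) (F : List (GC n)) (σ : Fin n → Bool) :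
    viol (D :: F) σ = viol F σ + (if GSat σ D then 0 else 1) := by
  unfold viol
  rw [List.countP_cons]
  by_cases h : GSat σ D <;> simp [h]

theorem viol_perm {F G : List (GC n)} (h : F.Perm G) (σ : Fin n → Bool) : viol F σ = viol G σ :=
  h.countP_eq _

theorem viol_sublist {F G : List (GC n)} (h : F.Sublist G) (σ : Fin n → Bool) :
    viol F σ ≤ viol G σ := h.countP_le

theorem viol_le_length (F : List (GC n)) (σ : Fin n → Bool) : viol F σ ≤ F.length :=
  List.countP_le_length

theorem Alive.of_sublist {l : ℕ} {F G : List (GC n)} (h : F.Sublist G) (hG : Alive l G) :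
    Alive l F := by
  obtain ⟨σ, hσ⟩ := hG
  exact ⟨σ, (viol_sublist h σ).trans hσ⟩

theorem AliveLit.of_sublist {l : ℕ} {F G : List (GC n)} {y : Lit n} (h : F.Sublist G)
    (hG : AliveLit l G y) : AliveLit l F y := by
  obtain ⟨σ, hy, hσ⟩ := hG
  exact ⟨σ, hy, (viol_sublist h σ).trans hσ⟩

theorem Alive.of_perm {l : ℕ} {F G : List (GC n)} (h : F.Perm G) (hG : Alive l G) :
    Alive l F := by
  obtain ⟨σ, hσ⟩ := hG
  exact ⟨σ, (viol_perm h σ).le.trans hσ⟩

theorem alive_perm {l : ℕ} {F G : List (GC n)} (h : F.Perm G) : Alive l F ↔ Alive l G :=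
  ⟨fun H => H.of_perm h.symm, fun H => H.of_perm h⟩

theorem AliveLit.alive {l : ℕ} {F : List (GC n)} {y : Lit n} (h : AliveLit l F y) : Alive l F := by
  obtain ⟨σ, _, hσ⟩ := h
  exact ⟨σ, hσ⟩

/-- if the formula is alive then one of the two literals of each variable is alive -/
theorem Alive.lit {l : ℕ} {F : List (GC n)} (h : Alive l F) (x : Fin n) :
    AliveLit l F (x, true) ∨ AliveLit l F (x, false) := by
  obtain ⟨σ, hσ⟩ := h
  cases hx : σ x
  · exact Or.inr ⟨σ, hx, hσ⟩
  · exact Or.inl ⟨σ, hx, hσ⟩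

/-- a clause killing an alive formula: the formula is critical and every literal of the clause
is dead -/
theorem kill_imp {l : ℕ} {F : List (GC n)} {D : GC n} (h1 : Alive l F) (h2 : ¬ Alive l (D :: F)) :
    Crit l F ∧ ∀ y ∈ D, ¬ AliveLit l F y := by
  refine ⟨⟨h1, fun σ => ?_⟩, ?_⟩
  · by_contra hlt
    push Not at hlt
    refine h2 ⟨σ, ?_⟩
    rw [viol_cons]
    split_ifs <;> omega
  · rintro y hy ⟨σ, hσy, hσ⟩
    refine h2 ⟨σ, ?_⟩
    rw [viol_cons, if_pos ⟨y, hy, hσy⟩]
    omega

/-- conversely, a clause all of whose literals are dead kills a critical formula -/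
theorem kill_of {l : ℕ} {F : List (GC n)} {D : GC n} (h1 : Crit l F)
    (h2 : ∀ y ∈ D, ¬ AliveLit l F y) : ¬ Alive l (D :: F) := by
  rintro ⟨σ, hσ⟩
  rw [viol_cons] at hσ
  have h3 := h1.2 σ
  split_ifs at hσ with h4
  · obtain ⟨y, hy, hy2⟩ := h4
    exact h2 y hy ⟨σ, hy2, by omega⟩
  · omega

theorem gsat_toGC {k : ℕ} (σ : Fin n → Bool) (c : Clause k n) :
    GSat σ (toGC c) ↔ ClauseSat σ c := by
  unfold GSat toGC ClauseSat
  simp [List.mem_ofFn]

theorem alive_zero_iff {k m : ℕ} (F : Fin m → Clause k n) :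
    Alive 0 ((List.ofFn F).map toGC) ↔ Satisfiable F := by
  unfold Alive Satisfiable viol
  refine exists_congr fun σ => ?_
  rw [Nat.le_zero, List.countP_eq_zero]
  simp [List.mem_ofFn, gsat_toGC]

theorem length_toGC {k : ℕ} (c : Clause k n) : (toGC c).length = k := by simp [toGC]

theorem cntLit_le {l : ℕ} (E F : List (GC n)) (y : Lit n) (M : ℕ) : cntLit l E F y M ≤ M := by
  classical
  unfold cntLit
  exact (Finset.card_filter_le _ _).trans (by simp)

theorem cntCl_le {l : ℕ} (E F : List (GC n)) (D : GC n) (M : ℕ) : cntCl l E F D M ≤ M := by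
  classical
  unfold cntCl
  exact (Finset.card_filter_le _ _).trans (by simp)

end basic

theorem Vq_nonneg (κ n i M l : ℕ) : 0 ≤ Vq κ n i M l :=
  lavg_nonneg fun _ => lavg_nonneg fun _ => sq_nonneg _

theorem Uq_nonneg (κ n r M l : ℕ) : 0 ≤ Uq κ n r M l :=
  lavg_nonneg fun _ => avg_nonneg fun _ => lavg_nonneg fun _ => sq_nonneg _

theorem card_clause (k n : ℕ) : Fintype.card (Clause k n) = n.descFactorial k * 2 ^ k := by
  rw [Fintype.card_prod]
  congr 1
  · have e : {v : Fin k → Fin n // Function.Injective v} ≃ (Fin k ↪ Fin n) :=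
      Equiv.subtypeInjectiveEquivEmbedding _ _
    rw [Fintype.card_congr e, Fintype.card_embedding_eq, Fintype.card_fin, Fintype.card_fin]
  · simp

theorem nonempty_clause {k n : ℕ} (h : k ≤ n) : Nonempty (Clause k n) :=
  ⟨⟨⟨fun i => Fin.castLE h i, fun i j hij => by simpa [Fin.ext_iff] using hij⟩, fun _ => true⟩⟩

end Crest.Agent.RS
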