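import Mathlib
import Crest.Agent.RS.Defs

/-! Chunk R153-KILL: single clause probabilities. -/

set_option autoImplicit false

namespace Crest.Agent.RS

open Finset Crest.ProbabilityR.RandomSAT

open Classical in
/-- the dead literals of a formula -/
noncomputable def deadSet {n : ℕ} (l : ℕ) (F : List (GC n)) : Finset (Lit n) :=
  Finset.univ.filter (fun y => ¬ AliveLit l F y)

theorem mem_deadSet {n l : ℕ} {F : List (GC n)} {y : Lit n} :
    y ∈ deadSet l F ↔ ¬ AliveLit l F y := by
  simp [deadSet]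

/-- In an alive formula at most one literal of each variable is dead (`Alive.lit`). -/
theorem deadSet_inj {n l : ℕ} {F : List (GC n)} (h : Alive l F) :
    ∀ y ∈ deadSet l F, ∀ z ∈ deadSet l F, y.1 = z.1 → y = z := by
  rintro ⟨x, b⟩ hy ⟨x', b'⟩ hz hxx
  rw [mem_deadSet] at hy hz
  simp only at hxx
  subst hxx
  have hl := h.lit x
  cases b <;> cases b' <;> first | rfl | (exfalso; rcases hl with hl | hl <;> contradiction)

/-- Hence at most `n` dead literals. -/
theorem card_deadSet_le {n l : ℕ} {F : List (GC n)} (h : Alive l F) :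
    (deadSet l F).card ≤ n := by
  have h1 : (deadSet l F).card ≤ (Finset.univ : Finset (Fin n)).card :=
    Finset.card_le_card_of_injOn (fun y => y.1) (fun _ _ => Finset.mem_coe.2 (Finset.mem_univ _))
      (fun y hy z hz hyz => deadSet_inj h y hy z hz hyz)
  simpa using h1

/-- Monotonicity of the dead set. -/
theorem deadSet_mono {n l : ℕ} {F G : List (GC n)} (h : F.Sublist G) :
    deadSet l F ⊆ deadSet l G := by
  intro y hy
  rw [mem_deadSet] at hy ⊢
  exact fun hG => hy (hG.of_sublist h)

/-- Counting: for a set `S` of literals with at most one literal per variable the number of clauses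
with all literals in `S` is `|S| (|S|-1) ... (|S|-k+1)` (injections `Fin k → S`). -/
theorem avg_all_mem {k n : ℕ} (S : Finset (Lit n)) (hS : ∀ y ∈ S, ∀ z ∈ S, y.1 = z.1 → y = z) :
    avg (fun c : Clause k n => if ∀ y ∈ toGC c, y ∈ S then (1 : ℝ) else 0) =
      (S.card.descFactorial k : ℝ) / ((n.descFactorial k : ℝ) * 2 ^ k) := by
  classical
  have hmem : ∀ c : Clause k n, (∀ y ∈ toGC c, y ∈ S) ↔ ∀ i, (c.1.1 i, c.2 i) ∈ S := by
    intro c
    unfold toGC
    simp [List.mem_ofFn]
  have e : {c : Clause k n // ∀ y ∈ toGC c, y ∈ S} ≃ (Fin k ↪ S) :=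
    { toFun := fun c => ⟨fun i => ⟨(c.1.1.1 i, c.1.2 i), (hmem c.1).1 c.2 i⟩, by
        intro i j hij
        have h1 := congrArg (fun y : S => y.1.1) hij
        exact c.1.1.2 h1⟩
      invFun := fun f => ⟨⟨⟨fun i => (f i).1.1, by
          intro i j hij
          have h1 := hS _ (f i).2 _ (f j).2 hij
          exact f.injective (Subtype.ext h1)⟩, fun i => (f i).1.2⟩, by
          rw [hmem]
          intro i
          exact (f i).2⟩
      left_inv := fun c => rfl
      right_inv := fun f => rfl }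
  have hcard : (Finset.univ.filter (fun c : Clause k n => ∀ y ∈ toGC c, y ∈ S)).card =
      S.card.descFactorial k := by
    rw [← Fintype.card_subtype, Fintype.card_congr e, Fintype.card_embedding_eq,
      Fintype.card_coe, Fintype.card_fin]
  unfold avg
  rw [← Finset.sum_filter, Finset.sum_const, nsmul_eq_mul, mul_one, hcard, card_clause]
  push_cast
  rfl

private theorem desc_mul_le {K n : ℕ} (h : K ≤ n) (k : ℕ) :
    K.descFactorial k * n ^ k ≤ K ^ k * n.descFactorial k := by
  induction k with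
  | zero => simp
  | succ k ih =>
    rw [Nat.descFactorial_succ, Nat.descFactorial_succ, pow_succ, pow_succ]
    have h1 : (K - k) * n ≤ K * (n - k) := by
      rcases le_total K k with h2 | h2
      · rw [Nat.sub_eq_zero_of_le h2]; simp
      · obtain ⟨a, rfl⟩ := Nat.exists_eq_add_of_le h2
        obtain ⟨b, rfl⟩ := Nat.exists_eq_add_of_le h
        rw [Nat.add_sub_cancel_left, Nat.add_assoc, Nat.add_sub_cancel_left]
        nlinarith [Nat.zero_le (k * b)]
    calc (K - k) * K.descFactorial k * (n ^ k * n)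
        = ((K - k) * n) * (K.descFactorial k * n ^ k) := by ring
      _ ≤ (K * (n - k)) * (K ^ k * n.descFactorial k) := Nat.mul_le_mul h1 ih
      _ = K ^ k * K * ((n - k) * n.descFactorial k) := by ring

private theorem pow_le_desc {K : ℕ} {a : ℝ} (ha : 0 ≤ a) (k : ℕ)
    (h : ∀ j < k, a ≤ (K : ℝ) - j) (hk : k ≤ K) : a ^ k ≤ (K.descFactorial k : ℝ) := by
  induction k with
  | zero => simp
  | succ k ih =>
    rw [Nat.descFactorial_succ, pow_succ]
    push_cast [Nat.cast_sub (show k ≤ K by omega)]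
    have h1 := ih (fun j hj => h j (by omega)) (by omega)
    have h2 := h k (Nat.lt_succ_self k)
    calc a ^ k * a ≤ (K.descFactorial k : ℝ) * ((K : ℝ) - k) := by
          gcongr
      _ = ((K : ℝ) - k) * (K.descFactorial k : ℝ) := by ring

open Classical in
/-- Upper bound for the probability that a random `κ`-clause (`κ ≥ 2`) kills:
by `kill_imp` and `avg_all_mem` it is at most `Π_{j<κ} (K-j)/(2(n-j)) ≤ (K/2n)^κ ≤ (K/2n)^2`. -/
theorem avg_kill_le {κ n l : ℕ} (hκ : 2 ≤ κ) (hn : κ ≤ n) (F : List (GC n)) :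
    avg (fun D : Clause κ n => if Alive l F ∧ ¬ Alive l (toGC D :: F) then (1 : ℝ) else 0) ≤
      if Crit l F then (((deadSet l F).card : ℝ) / (2 * n)) ^ 2 else 0 := by
  split_ifs with hc
  · have h1 : avg (fun D : Clause κ n =>
        if Alive l F ∧ ¬ Alive l (toGC D :: F) then (1 : ℝ) else 0) ≤
        avg (fun c : Clause κ n => if ∀ y ∈ toGC c, y ∈ deadSet l F then (1 : ℝ) else 0) := by
      refine avg_mono fun D => ?_
      split_ifs with h2 h3 h3
      · exact le_rfl
      · exact absurd (fun y hy => mem_deadSet.2 ((kill_imp h2.1 h2.2).2 y hy)) h3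
      · exact zero_le_one
      · exact le_rfl
    rw [avg_all_mem _ (deadSet_inj hc.1)] at h1
    refine h1.trans ?_
    have hK : (deadSet l F).card ≤ n := card_deadSet_le hc.1
    set K := (deadSet l F).card
    have hn0 : (0 : ℝ) < n := by
      have : 0 < n := by omega
      exact_mod_cast this
    have hd0 : (0 : ℝ) < n.descFactorial κ := by
      have : 0 < n.descFactorial κ := Nat.pos_of_ne_zero (by
        rw [Ne, Nat.descFactorial_eq_zero_iff_lt]; omega)
      exact_mod_cast this
    have h2 : ((K.descFactorial κ : ℕ) : ℝ) * (n : ℝ) ^ κ ≤ (K : ℝ) ^ κ * n.descFactorial κ := by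
      exact_mod_cast desc_mul_le hK κ
    have hKn : (K : ℝ) / (2 * n) ≤ 1 := by
      rw [div_le_one (by positivity)]
      have : (K : ℝ) ≤ n := by exact_mod_cast hK
      linarith
    calc ((K.descFactorial κ : ℕ) : ℝ) / ((n.descFactorial κ : ℝ) * 2 ^ κ)
        ≤ ((K : ℝ) / (2 * n)) ^ κ := by
          rw [div_pow, mul_pow, div_le_div_iff₀ (by positivity) (by positivity)]
          calc ((K.descFactorial κ : ℕ) : ℝ) * (2 ^ κ * (n : ℝ) ^ κ)
              = (((K.descFactorial κ : ℕ) : ℝ) * (n : ℝ) ^ κ) * 2 ^ κ := by ring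
            _ ≤ ((K : ℝ) ^ κ * n.descFactorial κ) * 2 ^ κ := by gcongr
            _ = (K : ℝ) ^ κ * (n.descFactorial κ * 2 ^ κ) := by ring
      _ ≤ ((K : ℝ) / (2 * n)) ^ 2 := pow_le_pow_of_le_one (by positivity) hKn hκ
  · refine le_of_eq ?_
    rw [avg_congr (g := fun _ => (0 : ℝ)) (fun D => ?_), avg_zero]
    rw [if_neg]
    rintro ⟨h1, h2⟩
    exact hc (kill_imp h1 h2).1

open Classical in
/-- Lower bound (hazard): if `F` is critical with at least `2 n δ` dead literals and `k ≤ n δ`, a random
`k`-clause kills with probability at least `(δ/2)^k`: by `kill_of` and `avg_all_mem` the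
probability is `≥ Π_{j<k} (K-j)/(2(n-j))` and `K - j ≥ 2nδ - k ≥ nδ`. -/
theorem le_avg_kill {k n l : ℕ} (F : List (GC n)) (hF : Crit l F) (δ : ℝ) (hδ : 0 < δ)
    (hδ1 : δ ≤ 1) (hn : (k : ℝ) ≤ n * δ) (hK : 2 * n * δ ≤ ((deadSet l F).card : ℝ)) :
    (δ / 2) ^ k ≤ avg (fun c : Clause k n => if ¬ Alive l (toGC c :: F) then (1 : ℝ) else 0) := by
  have h1 : avg (fun c : Clause k n => if ∀ y ∈ toGC c, y ∈ deadSet l F then (1 : ℝ) else 0) ≤
      avg (fun c : Clause k n => if ¬ Alive l (toGC c :: F) then (1 : ℝ) else 0) := by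
    refine avg_mono fun c => ?_
    split_ifs with h2 h3 h3
    · exact absurd h3 (kill_of hF (fun y hy => mem_deadSet.1 (h2 y hy)))
    · exact le_rfl
    · exact le_rfl
    · exact zero_le_one
  refine le_trans ?_ h1
  rw [avg_all_mem _ (deadSet_inj hF.1)]
  set K := (deadSet l F).card
  have hkn : k ≤ n := by
    have : (k : ℝ) ≤ n := hn.trans (by
      have : (0 : ℝ) ≤ n := Nat.cast_nonneg n
      nlinarith)
    exact_mod_cast this
  have hnd : (0 : ℝ) ≤ n * δ := by positivity
  have hkK : k ≤ K := by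
    have : (k : ℝ) ≤ K := by linarith
    exact_mod_cast this
  have hd0 : (0 : ℝ) < n.descFactorial k := by
    have : 0 < n.descFactorial k := Nat.pos_of_ne_zero (by
      rw [Ne, Nat.descFactorial_eq_zero_iff_lt]; omega)
    exact_mod_cast this
  have h2 : ((n : ℝ) * δ) ^ k ≤ (K.descFactorial k : ℝ) := by
    refine pow_le_desc hnd k (fun j hj => ?_) hkK
    have : (j : ℝ) ≤ k := by exact_mod_cast hj.le
    linarith
  have h3 : (n.descFactorial k : ℝ) ≤ (n : ℝ) ^ k := by
    exact_mod_cast Nat.descFactorial_le_pow n k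
  rw [le_div_iff₀ (by positivity), div_pow]
  calc δ ^ k / 2 ^ k * ((n.descFactorial k : ℝ) * 2 ^ k)
      = δ ^ k * n.descFactorial k := by field_simp
    _ ≤ δ ^ k * (n : ℝ) ^ k := by gcongr
    _ = ((n : ℝ) * δ) ^ k := by rw [mul_pow]; ring
    _ ≤ _ := h2

end Crest.Agent.RS
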