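import Mathlib
import Crest.Agent.RS.Avg

/-! Chunk R153-MIX: splitting an iid list into its left and right parts (binomial mixture). -/

set_option autoImplicit false

namespace Crest.Agent.RS

open Finset

/-- the left entries of a list of sums, in order -/
def lefts {A B : Type*} (L : List (A ⊕ B)) : List A := L.filterMap Sum.getLeft?

/-- the right entries of a list of sums, in order -/
def rights {A B : Type*} (L : List (A ⊕ B)) : List B := L.filterMap Sum.getRight?

/-- If the law of `φ c` is the mixture of `inl (fa a)` with weight `1 - q` and `inr (fb b)` with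
weight `q`, then the (lefts, rights) of `M` iid entries are: `ν ~ Bin(M, q)` and, given `ν`,
`M - ν` iid entries `fa a` and `ν` iid entries `fb b`.
Proof: induction on `M` (generalising `G`). For `M + 1`: `lavg_succ`, apply the induction
hypothesis to `G' L R = G (lefts [φ c] ++ L) (rights [φ c] ++ R)` for each `c`, then `H`;
the two resulting sums are combined by Pascal's rule `(M+1).choose ν = M.choose (ν-1) + M.choose ν`
(`Finset.sum_range_succ'`, `lavg_succ` on the `α` side for the first, on the `β` side - after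
`lavg_avg_comm` - for the second). -/
theorem lavg_mix {γ α β A B : Type*} [Fintype γ] [Fintype α] [Fintype β]
    (φ : γ → A ⊕ B) (fa : α → A) (fb : β → B) (q : ℝ)
    (H : ∀ h : A ⊕ B → ℝ, avg (fun c => h (φ c)) =
      (1 - q) * avg (fun a => h (Sum.inl (fa a))) + q * avg (fun b => h (Sum.inr (fb b))))
    (M : ℕ) (G : List A → List B → ℝ) :
    lavg γ M (fun F => G (lefts (F.map φ)) (rights (F.map φ))) =
      ∑ ν ∈ range (M + 1), (M.choose ν : ℝ) * q ^ ν * (1 - q) ^ (M - ν) *
        lavg α (M - ν) (fun L => lavg β ν (fun L' => G (L.map fa) (L'.map fb))) := by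
  induction M generalizing G with
  | zero => simp [lefts, rights]
  | succ M ih =>
    rw [lavg_succ]
    have h1 : ∀ c : γ, lavg γ M (fun F => G (lefts ((c :: F).map φ)) (rights ((c :: F).map φ))) =
        (fun s : A ⊕ B => ∑ ν ∈ range (M + 1), (M.choose ν : ℝ) * q ^ ν * (1 - q) ^ (M - ν) *
          lavg α (M - ν) (fun L => lavg β ν (fun L' =>
            G (lefts [s] ++ L.map fa) (rights [s] ++ L'.map fb)))) (φ c) := by
      intro c
      have := ih (fun L R => G (lefts [φ c] ++ L) (rights [φ c] ++ R))
      simp only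
      rw [← this]
      refine lavg_congr fun F => ?_
      have e1 : lefts ((c :: F).map φ) = lefts [φ c] ++ lefts (F.map φ) := by
        unfold lefts
        rw [List.map_cons, ← List.filterMap_append]
        rfl
      have e2 : rights ((c :: F).map φ) = rights [φ c] ++ rights (F.map φ) := by
        unfold rights
        rw [List.map_cons, ← List.filterMap_append]
        rfl
      rw [e1, e2]
    rw [avg_congr h1]
    refine (H (fun s : A ⊕ B => ∑ ν ∈ range (M + 1), (M.choose ν : ℝ) * q ^ ν * (1 - q) ^ (M - ν) *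
          lavg α (M - ν) (fun L => lavg β ν (fun L' =>
            G (lefts [s] ++ L.map fa) (rights [s] ++ L'.map fb))))).trans ?_
    set T : ℕ → ℕ → ℝ := fun i j => lavg α i (fun L => lavg β j (fun L' =>
      G (L.map fa) (L'.map fb))) with hT
    have hA : avg (fun a : α => (fun s : A ⊕ B => ∑ ν ∈ range (M + 1),
        (M.choose ν : ℝ) * q ^ ν * (1 - q) ^ (M - ν) *
          lavg α (M - ν) (fun L => lavg β ν (fun L' =>
            G (lefts [s] ++ L.map fa) (rights [s] ++ L'.map fb)))) (Sum.inl (fa a))) =
        ∑ ν ∈ range (M + 1), (M.choose ν : ℝ) * q ^ ν * (1 - q) ^ (M - ν) * T (M + 1 - ν) ν := by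
      rw [avg_sum]
      refine Finset.sum_congr rfl fun ν hν => ?_
      rw [avg_mul_left]
      congr 1
      have hν' : ν ≤ M := by
        have := Finset.mem_range.1 hν
        omega
      rw [hT, show M + 1 - ν = (M - ν) + 1 by omega]
      simp only
      rw [lavg_succ]
      rfl
    have hB : avg (fun b : β => (fun s : A ⊕ B => ∑ ν ∈ range (M + 1),
        (M.choose ν : ℝ) * q ^ ν * (1 - q) ^ (M - ν) *
          lavg α (M - ν) (fun L => lavg β ν (fun L' =>
            G (lefts [s] ++ L.map fa) (rights [s] ++ L'.map fb)))) (Sum.inr (fb b))) =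
        ∑ ν ∈ range (M + 1), (M.choose ν : ℝ) * q ^ ν * (1 - q) ^ (M - ν) * T (M - ν) (ν + 1) := by
      rw [avg_sum]
      refine Finset.sum_congr rfl fun ν hν => ?_
      rw [avg_mul_left]
      congr 1
      rw [hT]
      simp only
      rw [← lavg_avg_comm]
      rfl
    rw [hA, hB]
    rw [Finset.sum_range_succ' (fun ν => ((M + 1).choose ν : ℝ) * q ^ ν * (1 - q) ^ (M + 1 - ν) *
        lavg α (M + 1 - ν) (fun L => lavg β ν (fun L' => G (L.map fa) (L'.map fb)))) (M + 1)]
    have h2 : ∑ ν ∈ range (M + 1), (M.choose ν : ℝ) * q ^ ν * (1 - q) ^ (M + 1 - ν) *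
        T (M + 1 - ν) ν = ∑ ν ∈ range (M + 1), (M.choose (ν + 1) : ℝ) * q ^ (ν + 1) *
          (1 - q) ^ (M - ν) * T (M - ν) (ν + 1) + (1 - q) ^ (M + 1) * T (M + 1) 0 := by
      have h3 : ∑ ν ∈ range (M + 1), (M.choose ν : ℝ) * q ^ ν * (1 - q) ^ (M + 1 - ν) *
          T (M + 1 - ν) ν = ∑ ν ∈ range (M + 1 + 1), (M.choose ν : ℝ) * q ^ ν *
            (1 - q) ^ (M + 1 - ν) * T (M + 1 - ν) ν := by
        rw [Finset.sum_range_succ _ (M + 1), Nat.choose_succ_self]
        simp
      rw [h3, Finset.sum_range_succ']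
      simp only [Nat.choose_zero_right, Nat.cast_one, pow_zero, one_mul, Nat.sub_zero]
      congr 1
      refine Finset.sum_congr rfl fun ν _ => ?_
      rw [show M + 1 - (ν + 1) = M - ν by omega]
    have h4 : (1 - q) * ∑ ν ∈ range (M + 1), (M.choose ν : ℝ) * q ^ ν * (1 - q) ^ (M - ν) *
        T (M + 1 - ν) ν = ∑ ν ∈ range (M + 1), (M.choose ν : ℝ) * q ^ ν *
          (1 - q) ^ (M + 1 - ν) * T (M + 1 - ν) ν := by
      rw [Finset.mul_sum]
      refine Finset.sum_congr rfl fun ν hν => ?_
      have hν' : ν ≤ M := by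
        have := Finset.mem_range.1 hν
        omega
      rw [show M + 1 - ν = (M - ν) + 1 by omega, pow_succ]
      ring
    rw [h4, h2, Finset.mul_sum]
    simp only [Nat.choose_zero_right, Nat.cast_one, pow_zero, one_mul, mul_one, Nat.sub_zero]
    rw [add_right_comm, ← Finset.sum_add_distrib]
    congr 1
    refine Finset.sum_congr rfl fun ν _ => ?_
    rw [show M + 1 - (ν + 1) = M - ν by omega, Nat.choose_succ_succ]
    push_cast
    rw [hT]
    ring

end Crest.Agent.RS
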