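import Mathlib
import Crest.Agent.RS.Defs
import Crest.Agent.RS.Mix

/-! Chunk R153-PATH: removing variable `0`, pathwise bound. -/

set_option autoImplicit false

namespace Crest.Agent.RS

open Finset Crest.ProbabilityR.RandomSAT

/-- remove the literals of variable `0` and shift the variables down -/
def down {n : ℕ} (c : GC (n + 1)) : GC n :=
  c.filterMap (fun y => if h : y.1 = 0 then none else some (y.1.pred h, y.2))

/-- clauses not containing variable `0` go left, the others right, both shifted down with the
literals of variable `0` removed -/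
def split {n : ℕ} (c : GC (n + 1)) : GC n ⊕ GC n :=
  if ∃ y ∈ c, y.1 = 0 then Sum.inr (down c) else Sum.inl (down c)

section path
variable {n : ℕ}

theorem mem_down {c : GC (n + 1)} {z : Lit n} (h : (z.1.succ, z.2) ∈ c) : z ∈ down c := by
  unfold down
  rw [List.mem_filterMap]
  exact ⟨_, h, by simp [Fin.succ_ne_zero]⟩

theorem of_mem_down {c : GC (n + 1)} {z : Lit n} (h : z ∈ down c) : (z.1.succ, z.2) ∈ c := by
  unfold down at h
  rw [List.mem_filterMap] at h
  obtain ⟨y, hy, h2⟩ := h
  by_cases h0 : y.1 = 0
  · simp [h0] at h2
  · rw [dif_neg h0] at h2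
    have h3 : (y.1.pred h0, y.2) = z := Option.some.inj h2
    rw [← h3]
    simpa using hy

theorem gsat_up (σ : Fin (n + 1) → Bool) (c : GC n) :
    GSat σ (up c) ↔ GSat (fun i => σ i.succ) c := by
  unfold GSat up
  constructor
  · rintro ⟨y, hy, hy2⟩
    rw [List.mem_map] at hy
    obtain ⟨z, hz, rfl⟩ := hy
    exact ⟨z, hz, hy2⟩
  · rintro ⟨z, hz, hz2⟩
    exact ⟨(z.1.succ, z.2), List.mem_map.2 ⟨z, hz, rfl⟩, hz2⟩

/-- if `down c` is satisfied so is `c` -/
theorem gsat_of_down {σ : Fin (n + 1) → Bool} {c : GC (n + 1)}
    (h : GSat (fun i => σ i.succ) (down c)) : GSat σ c := by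
  obtain ⟨z, hz, hz2⟩ := h
  exact ⟨_, of_mem_down hz, hz2⟩

/-- a satisfied clause without variable `0` has a satisfied `down` -/
theorem gsat_down {σ : Fin (n + 1) → Bool} {c : GC (n + 1)} (h0 : ¬ ∃ y ∈ c, y.1 = 0)
    (h : GSat σ c) : GSat (fun i => σ i.succ) (down c) := by
  obtain ⟨y, hy, hy2⟩ := h
  have h1 : y.1 ≠ 0 := fun h2 => h0 ⟨y, hy, h2⟩
  refine ⟨(y.1.pred h1, y.2), mem_down ?_, ?_⟩
  · simpa using hy
  · simpa using hy2

theorem viol_map_up (E : List (GC n)) (σ : Fin (n + 1) → Bool) :
    viol (E.map up) σ = viol E (fun i => σ i.succ) := by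
  induction E with
  | nil => rfl
  | cons c E ih =>
    rw [List.map_cons, viol_cons, viol_cons, ih]
    simp only [gsat_up]

theorem lefts_cons {A B : Type*} (s : A ⊕ B) (L : List (A ⊕ B)) :
    lefts (s :: L) = lefts [s] ++ lefts L := by
  unfold lefts
  rw [← List.filterMap_append]
  rfl

theorem rights_cons {A B : Type*} (s : A ⊕ B) (L : List (A ⊕ B)) :
    rights (s :: L) = rights [s] ++ rights L := by
  unfold rights
  rw [← List.filterMap_append]
  rfl

theorem lefts_append {A B : Type*} (L L' : List (A ⊕ B)) :
    lefts (L ++ L') = lefts L ++ lefts L' := by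
  unfold lefts
  rw [← List.filterMap_append]

theorem rights_append {A B : Type*} (L L' : List (A ⊕ B)) :
    rights (L ++ L') = rights L ++ rights L' := by
  unfold rights
  rw [← List.filterMap_append]

theorem length_lefts_rights {A B : Type*} (L : List (A ⊕ B)) :
    (lefts L).length + (rights L).length = L.length := by
  induction L with
  | nil => rfl
  | cons s L ih =>
    rw [lefts_cons, rights_cons, List.length_append, List.length_append, List.length_cons]
    cases s <;> simp [lefts, rights] at * <;> omega

/-- the left clauses are not more violated than the whole formula -/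
theorem viol_lefts (F : List (GC (n + 1))) (σ : Fin (n + 1) → Bool) :
    viol (lefts (F.map split)) (fun i => σ i.succ) ≤ viol F σ := by
  induction F with
  | nil => exact le_rfl
  | cons c F ih =>
    rw [List.map_cons, lefts_cons, viol_append, viol_cons]
    by_cases h : ∃ y ∈ c, y.1 = 0
    · have h1 : lefts [split c] = [] := by
        unfold split lefts
        rw [if_pos h]
        rfl
      rw [h1, viol_nil]
      omega
    · have h1 : lefts [split c] = [down c] := by
        unfold split lefts
        rw [if_neg h]
        rfl
      rw [h1, viol_cons, viol_nil]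
      by_cases h2 : GSat σ c
      · rw [if_pos (gsat_down h h2), if_pos h2]
        omega
      · rw [if_neg h2]
        split_ifs <;> omega

/-- the whole formula is not more violated than the left and right parts -/
theorem viol_le_lefts_rights (F : List (GC (n + 1))) (σ : Fin (n + 1) → Bool) :
    viol F σ ≤ viol (lefts (F.map split)) (fun i => σ i.succ) +
      viol (rights (F.map split)) (fun i => σ i.succ) := by
  induction F with
  | nil => exact Nat.zero_le _
  | cons c F ih =>
    rw [List.map_cons, lefts_cons, rights_cons, viol_append, viol_append, viol_cons]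
    have key : (if GSat σ c then 0 else 1) ≤
        (if GSat (fun i => σ i.succ) (down c) then 0 else 1) := by
      by_cases h2 : GSat (fun i => σ i.succ) (down c)
      · rw [if_pos h2, if_pos (gsat_of_down h2)]
      · rw [if_neg h2]
        split_ifs <;> omega
    by_cases h : ∃ y ∈ c, y.1 = 0
    · have h1 : lefts [split c] = [] := by
        unfold split lefts
        rw [if_pos h]
        rfl
      have h3 : rights [split c] = [down c] := by
        unfold split rights
        rw [if_pos h]
        rfl
      rw [h1, h3, viol_cons, viol_nil]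
      omega
    · have h1 : lefts [split c] = [down c] := by
        unfold split lefts
        rw [if_neg h]
        rfl
      have h3 : rights [split c] = [] := by
        unfold split rights
        rw [if_neg h]
        rfl
      rw [h1, h3, viol_cons, viol_nil]
      omega

/-- a path that starts with `P` and ends with `¬ P` has a step from `P` to `¬ P` -/
theorem exists_step (P : ℕ → Prop) (ν : ℕ) (h0 : P 0) (h1 : ¬ P ν) :
    ∃ j < ν, P j ∧ ¬ P (j + 1) := by
  by_contra hcon
  push Not at hcon
  have : ∀ j, j ≤ ν → P j := by
    intro j
    induction j with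
    | zero => exact fun _ => h0
    | succ j ih => exact fun hj => hcon j (by omega) (ih (by omega))
  exact h1 (this ν le_rfl)

end path

/-- Pathwise bound. Notation: `A = lefts (F.map split)`, `B = rights (F.map split)`, `ν = |B|`.
Let `m < M` be counted in `cntLit`. With `A_m = lefts ((F.take m).map split)`,
`B_m = rights (..)`:
* `Alive l (E.map up ++ F.take m)` gives `Alive l (E ++ A_m)` (use `σ ∘ Fin.succ`; a clause without
  variable `0` is satisfied by `σ` iff its `down` is satisfied by `σ ∘ succ`; same for `up c`);
* `¬ AliveLit l (E.map up ++ F.take m) (0, true)` gives `¬ Alive l (E ++ A_m ++ B_m)` (extend `σ'` by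
  `σ 0 = true`: if `σ'` satisfies `down c` then `σ` satisfies `c`), hence
  `¬ Alive l (E ++ B ++ A_m)` (permutation and sublist monotonicity).
* `A_m = A.take m'` where `m' = |A_m| ≤ |A|`.
So there is `j < ν` with `Alive l (E ++ B.take j ++ A.take m')` and
`¬ Alive l (E ++ B.take (j+1) ++ A.take m')`, i.e. `m'` is counted in
`cntCl l (E ++ B.take j) A (B.getD j []) (|A| + 1)`.
Finally each value `m'` is attained by at most `1 + ν` values of `m < |F|` (between two such `m`
all clauses of `F` are right clauses; e.g. `m - m' = |B_m| ∈ [0, ν]` determines `m` from `m'`). -/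
theorem restr_path {n : ℕ} (l : ℕ) (E : List (GC n)) (F : List (GC (n + 1))) (M : ℕ)
    (hF : F.length = M) :
    cntLit l (E.map up) F (0, true) M ≤
      (1 + (rights (F.map split)).length) *
        ∑ j ∈ range (rights (F.map split)).length,
          cntCl l (E ++ (rights (F.map split)).take j) (lefts (F.map split))
            ((rights (F.map split)).getD j []) ((lefts (F.map split)).length + 1) := by
  classical
  set A := lefts (F.map split) with hA
  set B := rights (F.map split) with hB
  let Am : ℕ → List (GC n) := fun m => lefts ((F.take m).map split)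
  let Bm : ℕ → List (GC n) := fun m => rights ((F.take m).map split)
  have hAm : ∀ m, A = Am m ++ lefts ((F.drop m).map split) := fun m => by
    rw [hA, ← lefts_append, ← List.map_append, List.take_append_drop]
  have hBm : ∀ m, B = Bm m ++ rights ((F.drop m).map split) := fun m => by
    rw [hB, ← rights_append, ← List.map_append, List.take_append_drop]
  have hAtake : ∀ m, A.take (Am m).length = Am m := fun m => by
    conv_lhs => rw [hAm m]
    exact List.take_left' rfl
  have hlen : ∀ m, m ≤ M → (Am m).length + (Bm m).length = m := fun m hm => by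
    have h1 := length_lefts_rights ((F.take m).map split)
    rw [List.length_map, List.length_take, hF, min_eq_left hm] at h1
    exact h1
  have hBlen : ∀ m, (Bm m).length ≤ B.length := fun m => by
    rw [hBm m, List.length_append]
    omega
  have hAlen : ∀ m, (Am m).length ≤ A.length := fun m => by
    rw [hAm m, List.length_append]
    omega
  -- the counted set
  unfold cntLit
  set S := (Finset.range M).filter
    (fun m => Alive l (E.map up ++ F.take m) ∧ ¬ AliveLit l (E.map up ++ F.take m) (0, true)) with hS
  have himg : ∀ m ∈ S, ∃ j < B.length, Alive l (E ++ B.take j ++ A.take (Am m).length) ∧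
      ¬ Alive l (B.getD j [] :: (E ++ B.take j ++ A.take (Am m).length)) := by
    intro m hm
    rw [hS, Finset.mem_filter, Finset.mem_range] at hm
    obtain ⟨hm1, hm2, hm3⟩ := hm
    have h0 : Alive l (E ++ B.take 0 ++ A.take (Am m).length) := by
      obtain ⟨σ, hσ⟩ := hm2
      refine ⟨fun i => σ i.succ, ?_⟩
      rw [viol_append, viol_map_up] at hσ
      rw [hAtake, List.take_zero, List.append_nil, viol_append]
      have : viol (Am m) (fun i => σ i.succ) ≤ viol (F.take m) σ := viol_lefts (F.take m) σ
      omega
    have h1 : ¬ Alive l (E ++ B.take B.length ++ A.take (Am m).length) := by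
      rintro ⟨τ, hτ⟩
      rw [hAtake, List.take_length, viol_append, viol_append] at hτ
      refine hm3 ⟨Fin.cons true τ, by simp, ?_⟩
      rw [viol_append, viol_map_up]
      have h2 := viol_le_lefts_rights (F.take m) (Fin.cons true τ)
      have h3 : (fun i : Fin n => (Fin.cons true τ : Fin (n + 1) → Bool) i.succ) = τ := by
        funext i
        simp
      rw [h3] at h2 ⊢
      have h4 : viol (Bm m) τ ≤ viol B τ := by
        rw [hBm m, viol_append]
        omega
      have h5 : viol (F.take m) (Fin.cons true τ) ≤ viol (Am m) τ + viol (Bm m) τ := h2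
      omega
    obtain ⟨j, hj, hj1, hj2⟩ := exists_step
      (fun j => Alive l (E ++ B.take j ++ A.take (Am m).length)) B.length h0 h1
    refine ⟨j, hj, hj1, fun h => hj2 ?_⟩
    refine h.of_perm ?_
    have h6 : B.take (j + 1) = B.take j ++ [B.getD j []] := by
      rw [List.take_add_one, List.getD_eq_getElem _ _ hj, List.getElem?_eq_getElem hj]
      rfl
    rw [h6]
    have h7 : E ++ (B.take j ++ [B.getD j []]) ++ A.take (Am m).length =
        (E ++ B.take j) ++ (B.getD j [] :: A.take (Am m).length) := by simp
    rw [h7]
    exact List.perm_middle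
  have hcard : S.card ≤ (1 + B.length) * (S.image (fun m => (Am m).length)).card := by
    refine Finset.card_le_mul_card_image S (1 + B.length) ?_
    intro b _
    have : (S.filter (fun m => (Am m).length = b)).card ≤ (Finset.range (1 + B.length)).card := by
      refine Finset.card_le_card_of_injOn (fun m => m - b) ?_ ?_
      · intro m hm
        have hm' := Finset.mem_coe.1 hm
        rw [Finset.mem_filter, hS, Finset.mem_filter, Finset.mem_range] at hm'
        obtain ⟨⟨hm1, _⟩, hm2⟩ := hm'
        have h8 := hlen m (by omega)
        have h9 := hBlen m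
        rw [Finset.mem_coe, Finset.mem_range]
        show m - b < 1 + B.length
        omega
      · intro m hm m' hm' hmm
        have hm1 := Finset.mem_coe.1 hm
        have hm2 := Finset.mem_coe.1 hm'
        rw [Finset.mem_filter, hS, Finset.mem_filter, Finset.mem_range] at hm1 hm2
        obtain ⟨⟨h1, _⟩, h2⟩ := hm1
        obtain ⟨⟨h3, _⟩, h4⟩ := hm2
        have h8 := hlen m (by omega)
        have h9 := hlen m' (by omega)
        have h10 : m - b = m' - b := hmm
        omega
    simpa using this
  refine hcard.trans (Nat.mul_le_mul_left _ ?_)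
  have hsub : S.image (fun m => (Am m).length) ⊆ (range B.length).biUnion (fun j =>
      (Finset.range (A.length + 1)).filter (fun m => Alive l (E ++ B.take j ++ A.take m) ∧
        ¬ Alive l (B.getD j [] :: (E ++ B.take j ++ A.take m)))) := by
    intro m' hm'
    rw [Finset.mem_image] at hm'
    obtain ⟨m, hm, rfl⟩ := hm'
    obtain ⟨j, hj, h1, h2⟩ := himg m hm
    rw [Finset.mem_biUnion]
    refine ⟨j, Finset.mem_range.2 hj, ?_⟩
    rw [Finset.mem_filter, Finset.mem_range]
    have := hAlen m
    exact ⟨by omega, h1, h2⟩
  refine (Finset.card_le_card hsub).trans (Finset.card_biUnion_le.trans ?_)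
  refine Finset.sum_le_sum fun j _ => ?_
  unfold cntCl
  exact le_of_eq (by congr)

end Crest.Agent.RS
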