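import Mathlib
import Crest.Agent.RS.Defs
import Crest.Agent.RS.RestrPath

/-! Chunk R153-LAW: law of a random clause split by the presence of variable `0`. -/

set_option autoImplicit false

namespace Crest.Agent.RS

open Finset Crest.ProbabilityR.RandomSAT

theorem filterMap_ofFn_some {α β : Type*} (φ : α → Option β) {k : ℕ} (f : Fin k → α)
    (g : Fin k → β) (h : ∀ j, φ (f j) = some (g j)) :
    (List.ofFn f).filterMap φ = List.ofFn g := by
  induction k with
  | zero => simp
  | succ k ih =>
    rw [List.ofFn_succ, List.ofFn_succ, List.filterMap_cons_some (h 0)]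
    rw [ih (fun j => f j.succ) (fun j => g j.succ) (fun j => h j.succ)]

theorem filterMap_ofFn_skip {α β : Type*} (φ : α → Option β) {k : ℕ} (f : Fin (k + 1) → α)
    (g : Fin k → β) (i : Fin (k + 1)) (hi : φ (f i) = none)
    (h : ∀ j, φ (f (i.succAbove j)) = some (g j)) :
    (List.ofFn f).filterMap φ = List.ofFn g := by
  induction k with
  | zero =>
    obtain rfl : i = 0 := by omega
    rw [List.ofFn_succ, List.filterMap_cons_none hi]
    simp
  | succ k ih =>
    rw [List.ofFn_succ]
    refine Fin.cases ?_ ?_ i (motive := fun i => φ (f i) = none →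
      (∀ j, φ (f (i.succAbove j)) = some (g j)) → _) hi h
    · intro hi h
      rw [List.filterMap_cons_none hi]
      refine filterMap_ofFn_some φ _ _ fun j => ?_
      simpa using h j
    · intro i hi h
      have h0 := h 0
      rw [Fin.succ_succAbove_zero] at h0
      rw [List.filterMap_cons_some h0, List.ofFn_succ (f := g)]
      rw [ih (fun j => f j.succ) (fun j => g j.succ) i hi]
      intro j
      have := h j.succ
      rwa [Fin.succ_succAbove_succ] at this

/-- insert variable `0` at place `i` with sign `b` -/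
def insC {κ n : ℕ} (i : Fin (κ + 1)) (b : Bool) (a : Clause κ n) : Clause (κ + 1) (n + 1) :=
  ⟨⟨i.insertNth 0 (fun j => (a.1.1 j).succ), by
      intro x y
      refine Fin.succAboveCases i ?_ ?_ x <;> refine Fin.succAboveCases i ?_ ?_ y
      · intro _; rfl
      · intro j h
        simp only [Fin.insertNth_apply_same, Fin.insertNth_apply_succAbove] at h
        exact absurd h.symm (Fin.succ_ne_zero _)
      · intro j h
        simp only [Fin.insertNth_apply_same, Fin.insertNth_apply_succAbove] at h
        exact absurd h (Fin.succ_ne_zero _)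
      · intro j j' h
        simp only [Fin.insertNth_apply_succAbove] at h
        rw [a.1.2 (Fin.succ_injective _ h)]⟩,
    i.insertNth b a.2⟩

/-- shift up -/
def upC {κ n : ℕ} (a : Clause κ n) : Clause κ (n + 1) :=
  ⟨⟨fun j => (a.1.1 j).succ, fun _ _ h => a.1.2 (Fin.succ_injective _ h)⟩, a.2⟩

theorem toGC_upC {κ n : ℕ} (a : Clause κ n) : toGC (upC a) = up (toGC a) := by
  unfold toGC up upC
  rw [List.map_ofFn]
  rfl

theorem upC_injective {κ n : ℕ} : Function.Injective (upC (κ := κ) (n := n)) := by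
  intro a b h
  have h1 : ∀ j, (upC a).1.1 j = (upC b).1.1 j := fun j => by rw [h]
  have h2 : (upC a).2 = (upC b).2 := by rw [h]
  refine Prod.ext (Subtype.ext (funext fun j => Fin.succ_injective _ (h1 j))) h2

theorem upC_avoid {κ n : ℕ} (a : Clause κ n) (i : Fin κ) : (upC a).1.1 i ≠ 0 :=
  Fin.succ_ne_zero _

theorem exists_upC {κ n : ℕ} (c : Clause κ (n + 1)) (h : ∀ i, c.1.1 i ≠ 0) :
    ∃ a : Clause κ n, upC a = c := by
  refine ⟨⟨⟨fun i => (c.1.1 i).pred (h i), fun x y hxy => c.1.2 ?_⟩, c.2⟩, ?_⟩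
  · exact Fin.pred_inj.1 hxy
  · refine Prod.ext (Subtype.ext (funext fun j => ?_)) rfl
    simp [upC]

theorem sum_avoid {κ n : ℕ} (G : Clause κ (n + 1) → ℝ) :
    ∑ c : Clause κ (n + 1), (if ∀ i, c.1.1 i ≠ 0 then G c else 0) =
      ∑ a : Clause κ n, G (upC a) := by
  symm
  refine Finset.sum_of_injOn upC upC_injective.injOn (by simp [Set.MapsTo]) ?_ ?_
  · intro c _ hc
    rw [if_neg]
    intro h
    obtain ⟨a, ha⟩ := exists_upC c h
    exact hc ⟨a, by simp, ha⟩
  · intro a _
    rw [if_pos (upC_avoid a)]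

theorem insC_same {κ n : ℕ} (i : Fin (κ + 1)) (b : Bool) (a : Clause κ n) :
    (insC i b a).1.1 i = 0 := by simp [insC]

theorem insC_succAbove {κ n : ℕ} (i : Fin (κ + 1)) (b : Bool) (a : Clause κ n) (j : Fin κ) :
    (insC i b a).1.1 (i.succAbove j) = (a.1.1 j).succ := by simp [insC]

theorem insC_same2 {κ n : ℕ} (i : Fin (κ + 1)) (b : Bool) (a : Clause κ n) :
    (insC i b a).2 i = b := by simp [insC]

theorem insC_succAbove2 {κ n : ℕ} (i : Fin (κ + 1)) (b : Bool) (a : Clause κ n) (j : Fin κ) :
    (insC i b a).2 (i.succAbove j) = a.2 j := by simp [insC]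

theorem insC_eq_zero {κ n : ℕ} {i : Fin (κ + 1)} {b : Bool} {a : Clause κ n} {x : Fin (κ + 1)}
    (h : (insC i b a).1.1 x = 0) : x = i := by
  by_contra hne
  obtain ⟨j, rfl⟩ := Fin.exists_succAbove_eq hne
  rw [insC_succAbove] at h
  exact Fin.succ_ne_zero _ h

theorem insC_injective {κ n : ℕ} :
    Function.Injective (fun t : Fin (κ + 1) × Bool × Clause κ n => insC t.1 t.2.1 t.2.2) := by
  rintro ⟨i, b, a⟩ ⟨i', b', a'⟩ h
  simp only at h
  have hi : i = i' := by
    apply insC_eq_zero (b := b') (a := a')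
    rw [← h, insC_same]
  subst hi
  have hb : b = b' := by
    have := insC_same2 i b a
    rw [h, insC_same2] at this
    exact this.symm
  subst hb
  have ha : a = a' := by
    refine Prod.ext (Subtype.ext (funext fun j => ?_)) (funext fun j => ?_)
    · have := insC_succAbove i b a j
      rw [h, insC_succAbove] at this
      exact (Fin.succ_injective _ this).symm
    · have := insC_succAbove2 i b a j
      rw [h, insC_succAbove2] at this
      exact this.symm
  rw [ha]

theorem exists_insC {κ n : ℕ} (c : Clause (κ + 1) (n + 1)) (i : Fin (κ + 1)) (h : c.1.1 i = 0) :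
    ∃ b a, insC i b a = c := by
  have hne : ∀ j : Fin κ, c.1.1 (i.succAbove j) ≠ 0 := by
    intro j hj
    rw [← h] at hj
    exact Fin.succAbove_ne i j (c.1.2 hj)
  refine ⟨c.2 i, ⟨⟨fun j => (c.1.1 (i.succAbove j)).pred (hne j), fun x y hxy => ?_⟩,
    fun j => c.2 (i.succAbove j)⟩, ?_⟩
  · exact Fin.succAbove_right_injective (c.1.2 (Fin.pred_inj.1 hxy))
  · refine Prod.ext (Subtype.ext (funext fun x => ?_)) (funext fun x => ?_)
    · refine Fin.succAboveCases i ?_ ?_ x
      · simp [insC, h]
      · intro j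
        simp [insC]
    · refine Fin.succAboveCases i ?_ ?_ x
      · simp [insC]
      · intro j
        simp [insC]

theorem sum_ins {κ n : ℕ} (G : Clause (κ + 1) (n + 1) → ℝ) :
    ∑ c : Clause (κ + 1) (n + 1), (if ∀ i, c.1.1 i ≠ 0 then 0 else G c) =
      ∑ t : Fin (κ + 1) × Bool × Clause κ n, G (insC t.1 t.2.1 t.2.2) := by
  symm
  refine Finset.sum_of_injOn (fun t => insC t.1 t.2.1 t.2.2) insC_injective.injOn
    (by simp [Set.MapsTo]) ?_ ?_
  · intro c _ hc
    rw [if_pos]
    intro i hi
    obtain ⟨b, a, hba⟩ := exists_insC c i hi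
    exact hc ⟨(i, b, a), by simp, hba⟩
  · intro t _
    rw [if_neg]
    intro h
    exact h t.1 (insC_same _ _ _)

theorem split_upC {κ n : ℕ} (a : Clause κ n) : split (toGC (upC a)) = Sum.inl (toGC a) := by
  unfold split
  rw [if_neg]
  · congr 1
    unfold down toGC
    refine filterMap_ofFn_some _ _ _ fun j => ?_
    simp [upC]
  · rintro ⟨y, hy, hy0⟩
    unfold toGC at hy
    rw [List.mem_ofFn] at hy
    obtain ⟨i, rfl⟩ := hy
    exact upC_avoid a i hy0

theorem split_insC {κ n : ℕ} (i : Fin (κ + 1)) (b : Bool) (a : Clause κ n) :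
    split (toGC (insC i b a)) = Sum.inr (toGC a) := by
  unfold split
  rw [if_pos]
  · congr 1
    unfold down toGC
    refine filterMap_ofFn_skip _ _ _ i ?_ fun j => ?_
    · simp [insC_same]
    · simp [insC_succAbove, insC_succAbove2]
  · refine ⟨((insC i b a).1.1 i, (insC i b a).2 i), ?_, insC_same i b a⟩
    unfold toGC
    rw [List.mem_ofFn]
    exact ⟨i, rfl⟩

/-- A uniform `κ`-clause on `n+1` variables, restricted to the event of avoiding variable `0`, is (with
weight `(n+1-κ)/(n+1) ≤ 1`) a uniform `κ`-clause on `n` variables shifted up. -/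
theorem avg_avoid {κ n : ℕ} (h : κ ≤ n) (g : GC (n + 1) → ℝ) :
    avg (fun c : Clause κ (n + 1) => (if ∀ i, c.1.1 i ≠ 0 then g (toGC c) else 0)) =
      (1 - (κ : ℝ) / (n + 1)) * avg (fun a : Clause κ n => g (up (toGC a))) := by
  unfold avg
  rw [sum_avoid (fun c => g (toGC c))]
  simp only [toGC_upC]
  rw [card_clause, card_clause]
  have h1 : (n + 1 - κ) * (n + 1).descFactorial κ = (n + 1) * n.descFactorial κ := by
    have e1 := Nat.descFactorial_succ (n + 1) κ
    have e2 := Nat.succ_descFactorial_succ n κ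
    rw [← e1, e2]
  have h2 : ((n : ℝ) + 1 - κ) * ((n + 1).descFactorial κ : ℝ) = (n + 1) * (n.descFactorial κ : ℝ) := by
    have : ((n + 1 - κ : ℕ) : ℝ) = (n : ℝ) + 1 - κ := by
      rw [Nat.cast_sub (by omega)]; push_cast; ring
    rw [← this]
    exact_mod_cast h1
  have hd : (0 : ℝ) < (n.descFactorial κ : ℝ) := by
    exact_mod_cast Nat.descFactorial_pos.2 h
  have hd' : (0 : ℝ) < ((n + 1).descFactorial κ : ℝ) := by
    exact_mod_cast Nat.descFactorial_pos.2 (by omega)
  have hn : (0 : ℝ) < (n : ℝ) + 1 := by positivity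
  push_cast
  have hb : (1 - (κ : ℝ) / (n + 1)) = ((n : ℝ) + 1 - κ) / (n + 1) := by field_simp
  have h2κ : (0 : ℝ) < 2 ^ κ := by positivity
  rw [hb, div_mul_div_comm, div_eq_div_iff (by positivity) (by positivity)]
  calc _ = (∑ a : Clause κ n, g (up (toGC a))) * 2 ^ κ * ((n + 1) * (n.descFactorial κ : ℝ)) := by
        ring
    _ = _ := by rw [← h2]; ring

/-- A uniform `(κ+1)`-clause on `n+1` variables: with probability `q = (κ+1)/(n+1)` it contains
variable `0` and then the rest is a uniform `κ`-clause on `n` variables; otherwise it is (shifted) a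
uniform `(κ+1)`-clause on `n` variables.
Proof: bijection `Clause (κ+1) (n+1) ≃ Clause (κ+1) n ⊕ (Fin (κ+1) × Bool × Clause κ n)`: if
`0 ∉ range v` use `Fin.pred`; if `v j = 0` (unique `j`) remove position `j` (`Fin.succAbove j`) and
shift. Under it `split (toGC c)` is `inl (toGC a)` resp. `inr (toGC b)` (exactly, with the order of the
literals). Count: `(n).descFactorial (κ+1) * 2^(κ+1)` left, `2 (κ+1) * n.descFactorial κ * 2^κ` right,
total `(n+1).descFactorial (κ+1) * 2^(κ+1)` (see `card_clause`). One may also avoid the full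
equivalence and just construct injections with the right counting. -/
theorem avg_split {κ n : ℕ} (h : κ + 1 ≤ n) (g : GC n ⊕ GC n → ℝ) :
    avg (fun c : Clause (κ + 1) (n + 1) => g (split (toGC c))) =
      (1 - ((κ : ℝ) + 1) / (n + 1)) * avg (fun a : Clause (κ + 1) n => g (Sum.inl (toGC a))) +
      (((κ : ℝ) + 1) / (n + 1)) * avg (fun b : Clause κ n => g (Sum.inr (toGC b))) := by
  have hsum : ∑ c : Clause (κ + 1) (n + 1), g (split (toGC c)) =
      ∑ a : Clause (κ + 1) n, g (Sum.inl (toGC a)) +
        2 * (κ + 1) * ∑ b : Clause κ n, g (Sum.inr (toGC b)) := by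
    have h1 : ∀ c : Clause (κ + 1) (n + 1), g (split (toGC c)) =
        (if ∀ i, c.1.1 i ≠ 0 then g (split (toGC c)) else 0) +
        (if ∀ i, c.1.1 i ≠ 0 then 0 else g (split (toGC c))) := by
      intro c
      split_ifs <;> simp
    rw [Finset.sum_congr rfl (fun c _ => h1 c), Finset.sum_add_distrib,
      sum_avoid (fun c => g (split (toGC c))), sum_ins (fun c => g (split (toGC c)))]
    simp only [split_upC, split_insC]
    congr 1
    rw [Fintype.sum_prod_type]
    simp only [Fintype.sum_prod_type]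
    simp
    ring
  unfold avg
  rw [hsum, card_clause, card_clause, card_clause]
  have hκ : κ ≤ n := by omega
  have h1 : ((n + 1).descFactorial (κ + 1) : ℝ) = (n + 1) * (n.descFactorial κ : ℝ) := by
    have e2 := Nat.succ_descFactorial_succ n κ
    rw [e2]; push_cast; ring
  have h2 : (n.descFactorial (κ + 1) : ℝ) = ((n : ℝ) - κ) * (n.descFactorial κ : ℝ) := by
    rw [Nat.descFactorial_succ]
    push_cast [Nat.cast_sub hκ]
    ring
  have hd : (0 : ℝ) < (n.descFactorial κ : ℝ) := by
    exact_mod_cast Nat.descFactorial_pos.2 hκ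
  have hn : (0 : ℝ) < (n : ℝ) + 1 := by positivity
  have hnk : (0 : ℝ) < (n : ℝ) - κ := by
    have : ((κ + 1 : ℕ) : ℝ) ≤ n := by exact_mod_cast h
    push_cast at this
    linarith
  push_cast
  rw [h1, h2]
  generalize (∑ a : Clause (κ + 1) n, g (Sum.inl (toGC a))) = S1
  generalize (∑ b : Clause κ n, g (Sum.inr (toGC b))) = S2
  field_simp
  ring

end Crest.Agent.RS
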