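import Mathlib
import Crest.Agent.RS.Defs
import Crest.Agent.RS.ClauseLaw

/-! Chunk R153-SYM: symmetry of the literals. -/

set_option autoImplicit false

namespace Crest.Agent.RS

open Finset Crest.ProbabilityR.RandomSAT

theorem sym_xor_iff (a b s : Bool) : (a = (b ^^ s)) ↔ ((a ^^ s) = b) := by
  cases a <;> cases b <;> cases s <;> simp

theorem sym_gsat {n : ℕ} (τ : Equiv.Perm (Fin n)) (s : Bool) (σ : Fin n → Bool) (c : GC n) :
    GSat σ (c.map fun z => (τ z.1, z.2 ^^ s)) ↔ GSat (fun x => σ (τ x) ^^ s) c := by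
  unfold GSat
  simp only [List.mem_map, exists_exists_and_eq_and]
  exact exists_congr fun z => and_congr_right fun _ => sym_xor_iff _ _ _

theorem sym_viol {n : ℕ} (τ : Equiv.Perm (Fin n)) (s : Bool) (F : List (GC n)) (σ : Fin n → Bool) :
    viol (F.map (List.map fun z => (τ z.1, z.2 ^^ s))) σ = viol F (fun x => σ (τ x) ^^ s) := by
  unfold viol
  rw [List.countP_map]
  congr 1
  funext c
  simp only [Function.comp]
  exact decide_eq_decide.2 (not_congr (sym_gsat τ s σ c))

theorem sym_alive {n l : ℕ} (τ : Equiv.Perm (Fin n)) (s : Bool) (F : List (GC n)) :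
    Alive l (F.map (List.map fun z => (τ z.1, z.2 ^^ s))) ↔ Alive l F := by
  unfold Alive
  constructor
  · rintro ⟨σ, hσ⟩
    rw [sym_viol] at hσ
    exact ⟨_, hσ⟩
  · rintro ⟨σ, hσ⟩
    refine ⟨fun x => σ (τ.symm x) ^^ s, ?_⟩
    rw [sym_viol]
    have : (fun x => (σ (τ.symm (τ x)) ^^ s) ^^ s) = σ := by
      funext x
      simp
    rw [this]
    exact hσ

theorem sym_aliveLit {n l : ℕ} (τ : Equiv.Perm (Fin n)) (s : Bool) (F : List (GC n)) (y : Lit n) :
    AliveLit l (F.map (List.map fun z => (τ z.1, z.2 ^^ s))) (τ y.1, y.2 ^^ s) ↔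
      AliveLit l F y := by
  unfold AliveLit
  constructor
  · rintro ⟨σ, h1, hσ⟩
    rw [sym_viol] at hσ
    exact ⟨_, (sym_xor_iff _ _ _).1 h1, hσ⟩
  · rintro ⟨σ, h1, hσ⟩
    refine ⟨fun x => σ (τ.symm x) ^^ s, ?_, ?_⟩
    · simp [h1]
    · rw [sym_viol]
      have : (fun x => (σ (τ.symm (τ x)) ^^ s) ^^ s) = σ := by
        funext x
        simp
      rw [this]
      exact hσ

/-- relabelling of the prelude clauses -/
def symClause {k n : ℕ} (τ : Equiv.Perm (Fin n)) (s : Bool) : Clause k n ≃ Clause k n where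
  toFun c := (⟨fun i => τ (c.1.1 i), fun i j h => c.1.2 (τ.injective h)⟩, fun i => c.2 i ^^ s)
  invFun c := (⟨fun i => τ.symm (c.1.1 i), fun i j h => c.1.2 (τ.symm.injective h)⟩,
    fun i => c.2 i ^^ s)
  left_inv c := by
    refine Prod.ext (Subtype.ext ?_) ?_
    · funext i; simp
    · funext i; simp
  right_inv c := by
    refine Prod.ext (Subtype.ext ?_) ?_
    · funext i; simp
    · funext i; simp

theorem sym_toGC {k n : ℕ} (τ : Equiv.Perm (Fin n)) (s : Bool) (c : Clause k n) :
    toGC (symClause τ s c) = (toGC c).map fun z => (τ z.1, z.2 ^^ s) := by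
  unfold toGC symClause
  rw [List.map_ofFn]
  rfl

theorem sym_map_toGC {k n : ℕ} (τ : Equiv.Perm (Fin n)) (s : Bool) (E : List (Clause k n)) :
    (E.map (symClause τ s)).map toGC =
      (E.map toGC).map (List.map fun z => (τ z.1, z.2 ^^ s)) := by
  rw [List.map_map, List.map_map]
  refine List.map_congr_left fun c _ => ?_
  exact sym_toGC τ s c

/-- Relabelling: for every literal `y` there is a relabelling of the variables and signs taking `y`
to `(0, true)`; averaging over uniform clauses it does not matter. `Φ` is any function of the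
formulas `E` (`κ`-clauses), `F` (`k`-clauses) and the literal which is invariant under relabellings.
Proof: `e : Lit (n+1) ≃ Lit (n+1)`, `e (x, b) = (τ x, b ^^ s)` with `τ = Equiv.swap y.1 0` and
`s = !y.2` (so that `e y = (0,true)`), induces `Clause k (n+1) ≃ Clause k (n+1)` with
`toGC (e c) = (toGC c).map e`; use `lavg_map_equiv`. -/
theorem lavg_relabel {κ k n r M : ℕ} (Φ : List (GC (n + 1)) → List (GC (n + 1)) → Lit (n + 1) → ℝ)
    (hΦ : ∀ (τ : Equiv.Perm (Fin (n + 1))) (s : Bool) (E F : List (GC (n + 1))) (y : Lit (n + 1)),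
      Φ (E.map (List.map fun z => (τ z.1, z.2 ^^ s))) (F.map (List.map fun z => (τ z.1, z.2 ^^ s)))
        (τ y.1, y.2 ^^ s) = Φ E F y)
    (y : Lit (n + 1)) :
    lavg (Clause κ (n + 1)) r (fun E => lavg (Clause k (n + 1)) M (fun F =>
      Φ (E.map toGC) (F.map toGC) y)) =
    lavg (Clause κ (n + 1)) r (fun E => lavg (Clause k (n + 1)) M (fun F =>
      Φ (E.map toGC) (F.map toGC) (0, true))) := by
  set τ : Equiv.Perm (Fin (n + 1)) := Equiv.swap y.1 0 with hτ
  set s : Bool := !y.2 with hs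
  have hy : ((τ y.1, y.2 ^^ s) : Lit (n + 1)) = (0, true) := by
    rw [hτ, hs, Equiv.swap_apply_left]
    simp
  rw [← lavg_map_equiv (symClause τ s) r (fun E => lavg (Clause k (n + 1)) M (fun F =>
      Φ (E.map toGC) (F.map toGC) (0, true)))]
  refine lavg_congr fun E => ?_
  rw [← lavg_map_equiv (symClause τ s) M (fun F =>
      Φ ((E.map (symClause τ s)).map toGC) (F.map toGC) (0, true))]
  refine lavg_congr fun F => ?_
  rw [sym_map_toGC, sym_map_toGC, ← hy, hΦ]

/-- `cntLit` is invariant under relabellings (bijection of the assignments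
`σ ↦ fun x => σ (τ.symm x) ^^ s`). -/
theorem cntLit_relabel {n : ℕ} (l M : ℕ) (τ : Equiv.Perm (Fin n)) (s : Bool)
    (E F : List (GC n)) (y : Lit n) :
    cntLit l (E.map (List.map fun z => (τ z.1, z.2 ^^ s)))
      (F.map (List.map fun z => (τ z.1, z.2 ^^ s))) (τ y.1, y.2 ^^ s) M = cntLit l E F y M := by
  classical
  unfold cntLit
  congr 1
  refine Finset.filter_congr fun m _ => ?_
  rw [← List.map_take, ← List.map_append, sym_alive, sym_aliveLit]

theorem sym_avoid_le {κ n : ℕ} (h : κ ≤ n) (r : ℕ) (G : List (GC (n + 1)) → ℝ)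
    (hG : ∀ E, 0 ≤ G E) :
    lavg (Clause κ (n + 1)) r (fun E =>
      (if ∀ c ∈ E.map toGC, ∀ z ∈ c, z.1 ≠ 0 then G (E.map toGC) else 0)) ≤
    lavg (Clause κ n) r (fun E => G (E.map (fun c => up (toGC c)))) := by
  induction r generalizing G with
  | zero => simp
  | succ r ih =>
    rw [lavg_succ, lavg_succ]
    set H : GC (n + 1) → ℝ := fun c => lavg (Clause κ n) r (fun E =>
      G (c :: E.map (fun c => up (toGC c)))) with hH
    have hH0 : ∀ c, 0 ≤ H c := fun c => lavg_nonneg fun _ => hG _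
    have h1 : ∀ a : Clause κ (n + 1), lavg (Clause κ (n + 1)) r (fun L =>
        (if ∀ c ∈ (a :: L).map toGC, ∀ z ∈ c, z.1 ≠ 0 then G ((a :: L).map toGC) else 0)) ≤
        (if ∀ i, a.1.1 i ≠ 0 then H (toGC a) else 0) := by
      intro a
      have ha : (∀ z ∈ toGC a, z.1 ≠ 0) ↔ ∀ i, a.1.1 i ≠ 0 := by
        unfold toGC
        simp [List.mem_ofFn]
      by_cases hc : ∀ i, a.1.1 i ≠ 0
      · rw [if_pos hc]
        refine le_trans (le_of_eq ?_) (ih (fun E => G (toGC a :: E)) fun E => hG _)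
        refine lavg_congr fun L => ?_
        simp only [List.map_cons, List.forall_mem_cons]
        have := ha.2 hc
        by_cases hd : ∀ c ∈ L.map toGC, ∀ z ∈ c, z.1 ≠ 0
        · rw [if_pos hd, if_pos ⟨this, hd⟩]
        · rw [if_neg hd, if_neg fun hh => hd hh.2]
      · rw [if_neg hc]
        refine le_of_eq ((lavg_congr fun L => ?_).trans
          (lavg_zero_fun (α := Clause κ (n + 1)) r))
        rw [if_neg]
        intro hh
        simp only [List.map_cons, List.forall_mem_cons] at hh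
        exact hc (ha.1 hh.1)
    refine (avg_mono h1).trans ?_
    rw [avg_avoid h]
    have h2 : 0 ≤ avg (fun a : Clause κ n => H (up (toGC a))) := avg_nonneg fun a => hH0 _
    have h3 : 0 ≤ (κ : ℝ) / (n + 1) := by positivity
    refine le_trans (mul_le_of_le_one_left h2 (by linarith)) (le_of_eq ?_)
    rfl

/-- Average over all literals outside the initial clauses:
for each `y` relabel (`lavg_relabel` with `Φ E F y = 1(y.1 ∉ vars E) * cntLit^2`) to `(0,true)`; then
`avg_avoid` in each of the `r` coordinates of `E` (induction on `r`; the weights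
`1 - κ/(n+1) ∈ [0,1]`) gives `≤ Vq`. There are `2(n+1)` literals. -/
theorem sum_lit_le (κ n r M l : ℕ) (h : κ ≤ n) :
    ∑ y : Lit (n + 1), lavg (Clause κ (n + 1)) r (fun E => lavg (Clause (κ + 1) (n + 1)) M (fun F =>
      (if ∀ c ∈ E.map toGC, ∀ z ∈ c, z.1 ≠ y.1 then
        ((cntLit l (E.map toGC) (F.map toGC) y M : ℕ) : ℝ) ^ 2 else 0))) ≤
      2 * ((n : ℝ) + 1) * Vq κ n r M l := by
  have hy : ∀ y : Lit (n + 1), lavg (Clause κ (n + 1)) r (fun E =>
      lavg (Clause (κ + 1) (n + 1)) M (fun F =>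
      (if ∀ c ∈ E.map toGC, ∀ z ∈ c, z.1 ≠ y.1 then
        ((cntLit l (E.map toGC) (F.map toGC) y M : ℕ) : ℝ) ^ 2 else 0))) ≤ Vq κ n r M l := by
    intro y
    rw [lavg_relabel (κ := κ) (k := κ + 1) (fun E F y =>
      (if ∀ c ∈ E, ∀ z ∈ c, z.1 ≠ y.1 then
        ((cntLit l E F y M : ℕ) : ℝ) ^ 2 else 0)) ?_ y]
    · unfold Vq
      refine le_trans (le_of_eq ?_) (sym_avoid_le h r (fun E =>
        lavg (Clause (κ + 1) (n + 1)) M (fun F =>
          ((cntLit l E (F.map toGC) (0, true) M : ℕ) : ℝ) ^ 2))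
        (fun E => lavg_nonneg fun F => sq_nonneg _))
      refine lavg_congr fun E => ?_
      by_cases hc : ∀ c ∈ E.map toGC, ∀ z ∈ c, z.1 ≠ 0
      · rw [if_pos hc]
        refine lavg_congr fun F => ?_
        rw [if_pos hc]
      · rw [if_neg hc]
        refine (lavg_congr fun F => ?_).trans (lavg_zero_fun (α := Clause (κ + 1) (n + 1)) M)
        rw [if_neg hc]
    · intro τ s E F y
      have e1 := cntLit_relabel l M τ s E F y
      have e2 : (∀ c ∈ E.map (List.map fun z => (τ z.1, z.2 ^^ s)), ∀ z ∈ c, z.1 ≠ τ y.1) ↔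
          (∀ c ∈ E, ∀ z ∈ c, z.1 ≠ y.1) := by
        simp only [List.forall_mem_map]
        refine forall_congr' fun c => forall_congr' fun _ => forall_congr' fun z =>
          forall_congr' fun _ => ?_
        simp
      simp only [e1]
      by_cases hc : ∀ c ∈ E, ∀ z ∈ c, z.1 ≠ y.1
      · rw [if_pos hc, if_pos (e2.2 hc)]
      · rw [if_neg hc, if_neg fun hh => hc (e2.1 hh)]
  refine (Finset.sum_le_sum fun y _ => hy y).trans (le_of_eq ?_)
  rw [Finset.sum_const, Finset.card_univ, nsmul_eq_mul, Fintype.card_prod, Fintype.card_fin,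
    Fintype.card_bool]
  push_cast
  ring

/-- The case without initial clauses: every literal `y` gives exactly `Vq κ n 0 M l`. -/
theorem lavg_lit_eq (κ n M l : ℕ) (y : Lit (n + 1)) :
    lavg (Clause (κ + 1) (n + 1)) M (fun F =>
      ((cntLit l [] (F.map toGC) y M : ℕ) : ℝ) ^ 2) = Vq κ n 0 M l := by
  have := lavg_relabel (κ := κ) (k := κ + 1) (r := 0) (M := M) (fun E F y =>
    ((cntLit l E F y M : ℕ) : ℝ) ^ 2) (fun τ s E F y => by rw [cntLit_relabel]) y
  simpa [Vq] using this

end Crest.Agent.RS
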