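import Mathlib
import Crest.Agent.RS.Defs
import Crest.Agent.RS.Sym
import Crest.Agent.RS.Kill

/-! Chunk R153-INCR: increments of the hitting times. -/

set_option autoImplicit false

namespace Crest.Agent.RS

open Finset Crest.ProbabilityR.RandomSAT

open Classical in
/-- truncated hitting time of level `l`: number of `m < M` such that the first `m` clauses can be
satisfied up to `l` exceptions -/
noncomputable def hit {k n : ℕ} (l : ℕ) (L : List (Clause k n)) (M : ℕ) : ℕ :=
  ((Finset.range M).filter (fun m => Alive l ((L.take m).map toGC))).card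

open Classical in
/-- the same for the stream whose `i`-th clause has been blanked; `L'` is the stream without its
`i`-th clause -/
noncomputable def hitE {k n : ℕ} (l i : ℕ) (L' : List (Clause k n)) (M : ℕ) : ℕ :=
  ((Finset.range M).filter (fun m => Alive l ((L'.take (if m ≤ i then m else m - 1)).map toGC))).card

theorem incr_take_eraseIdx_of_le {α : Type*} (L : List α) {i m : ℕ} (h : m ≤ i) :
    (L.eraseIdx i).take m = L.take m := by
  rw [List.eraseIdx_eq_take_drop_succ, List.take_append, List.take_take, min_eq_left h]
  rcases le_total i L.length with h2 | h2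
  · have : m - (L.take i).length = 0 := by
      rw [List.length_take]; omega
    rw [this, List.take_zero, List.append_nil]
  · have : L.drop (i + 1) = [] := List.drop_eq_nil_of_le (by omega)
    rw [this, List.take_nil, List.append_nil]

theorem incr_take_eraseIdx_of_lt {α : Type*} (L : List α) {i m : ℕ} (h : i < m) :
    (L.take m).eraseIdx i = (L.eraseIdx i).take (m - 1) := by
  rw [List.eraseIdx_eq_take_drop_succ, List.eraseIdx_eq_take_drop_succ, List.take_take,
    List.take_append, List.take_take, List.drop_take]
  congr 1
  · congr 1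
    omega
  · rcases le_total i L.length with h2 | h2
    · congr 1
      rw [List.length_take]
      omega
    · have : L.drop (i + 1) = [] := List.drop_eq_nil_of_le (by omega)
      rw [this, List.take_nil, List.take_nil]

/-- Pathwise: for `i < M`, `|L| = M`, with `c = L[i]`, `y` its first literal and `L' = L.eraseIdx i`:
`0 ≤ hitE - hit ≤ cntLit l [] (L'.map toGC) y M`:
a time `m` contributes only if `m > i`, `L'.take (m-1)` is alive and with `c` added it is not
(`(L.take m).map toGC` is a permutation of `toGC c :: (L'.take (m-1)).map toGC`), then by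
`kill_imp` `y` is dead for `L'.take (m-1)`; `m - 1 < M`. -/
theorem hitE_sub_hit {k n : ℕ} (l i M : ℕ) (L : List (Clause (k + 1) n)) (hL : L.length = M)
    (hi : i < M) (c : Clause (k + 1) n) (hc : L[i]? = some c) :
    (hit l L M ≤ hitE l i (L.eraseIdx i) M) ∧
    (hitE l i (L.eraseIdx i) M ≤ hit l L M +
      cntLit l [] ((L.eraseIdx i).map toGC) (c.1.1 0, c.2 0) M) := by
  classical
  have hperm : ∀ m, i < m → m ≤ M → ((L.take m).map toGC).Perm
      (toGC c :: ((L.eraseIdx i).take (m - 1)).map toGC) := by
    intro m him hmM
    have h1 : i < (L.take m).length := by rw [List.length_take]; omega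
    have h2 : (L.take m)[i] = c := by
      have h3 : (L.take m)[i]? = some c := by
        rw [List.getElem?_take_of_lt him, hc]
      rw [List.getElem?_eq_getElem h1] at h3
      exact Option.some.inj h3
    have h4 := (List.getElem_cons_eraseIdx_perm h1).symm.map toGC
    rw [h2, incr_take_eraseIdx_of_lt L him] at h4
    simpa using h4
  constructor
  · unfold hit hitE
    apply Finset.card_le_card
    intro m hm
    rw [Finset.mem_filter, Finset.mem_range] at hm ⊢
    refine ⟨hm.1, ?_⟩
    split_ifs with h
    · rw [incr_take_eraseIdx_of_le L h]; exact hm.2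
    · have h5 := (alive_perm (l := l) (hperm m (by omega) hm.1.le)).1 hm.2
      exact h5.of_sublist (List.sublist_cons_self _ _)
  · unfold hit hitE cntLit
    set A := (Finset.range M).filter (fun m => Alive l ((L.take m).map toGC)) with hA
    set B := (Finset.range M).filter (fun m => Alive l ([] ++ ((L.eraseIdx i).map toGC).take m) ∧
      ¬ AliveLit l ([] ++ ((L.eraseIdx i).map toGC).take m) (c.1.1 0, c.2 0)) with hB
    have hsub : (Finset.range M).filter (fun m =>
        Alive l (((L.eraseIdx i).take (if m ≤ i then m else m - 1)).map toGC)) ⊆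
        A ∪ B.image Nat.succ := by
      intro m hm
      rw [Finset.mem_filter, Finset.mem_range] at hm
      rw [Finset.mem_union]
      by_cases hmA : Alive l ((L.take m).map toGC)
      · left
        rw [hA, Finset.mem_filter, Finset.mem_range]
        exact ⟨hm.1, hmA⟩
      · right
        have him : ¬ m ≤ i := by
          intro h
          rw [if_pos h, incr_take_eraseIdx_of_le L h] at hm
          exact hmA hm.2
        rw [if_neg him] at hm
        rw [Finset.mem_image]
        refine ⟨m - 1, ?_, by simp only [Nat.succ_eq_add_one]; omega⟩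
        rw [hB, Finset.mem_filter, Finset.mem_range]
        have h6 : ¬ Alive l (toGC c :: ((L.eraseIdx i).take (m - 1)).map toGC) :=
          fun h => hmA ((alive_perm (l := l) (hperm m (by omega) hm.1.le)).2 h)
        have h7 := kill_imp hm.2 h6
        rw [List.nil_append, ← List.map_take]
        refine ⟨by omega, hm.2, h7.2 _ ?_⟩
        unfold toGC
        rw [List.mem_ofFn]
        exact ⟨0, rfl⟩
    have e1 := Finset.card_le_card hsub
    have e2 := Finset.card_union_le A (B.image Nat.succ)
    have e3 : (B.image Nat.succ).card ≤ B.card := Finset.card_image_le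
    exact e1.trans (e2.trans (Nat.add_le_add_left e3 _))

/-- Second moment of the increments.
Proof: by `hitE_sub_hit` the square is `≤ cntLit^2`; `lavg_eraseIdx` turns the average into
`avg_c lavg (M-1) (cntLit (y c))^2`; for a stream of length `M-1` the count with horizon `M` equals that of
`L.take (M-1)`, `L` of length `M` (`lavg_take`; `(L.take (M-1)).take m = L.take m` for `m < M`); then
`lavg_lit_eq`. -/
theorem incr_le {κ n : ℕ} (hn : κ + 1 ≤ n + 1) (l i M : ℕ) (hi : i < M) :
    lavg (Clause (κ + 1) (n + 1)) M
      (fun L => (((hit l L M : ℕ) : ℝ) - ((hitE l i (L.eraseIdx i) M : ℕ) : ℝ)) ^ 2) ≤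
      Vq κ n 0 M l := by
  classical
  obtain ⟨d⟩ := nonempty_clause hn
  haveI : Nonempty (Clause (κ + 1) (n + 1)) := ⟨d⟩
  set g : Clause (κ + 1) (n + 1) → List (Clause (κ + 1) (n + 1)) → ℝ :=
    fun a L' => ((cntLit l [] (L'.map toGC) (a.1.1 0, a.2 0) M : ℕ) : ℝ) ^ 2 with hg
  have h1 : lavg (Clause (κ + 1) (n + 1)) M
      (fun L => (((hit l L M : ℕ) : ℝ) - ((hitE l i (L.eraseIdx i) M : ℕ) : ℝ)) ^ 2) ≤
      lavg (Clause (κ + 1) (n + 1)) M (fun L => g (L.getD i d) (L.eraseIdx i)) := by
    refine lavg_mono_length fun L hL => ?_
    have hi' : i < L.length := by omega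
    have hc : L[i]? = some L[i] := List.getElem?_eq_getElem hi'
    have hgd : L.getD i d = L[i] := by simp [List.getD, hc]
    obtain ⟨e1, e2⟩ := hitE_sub_hit l i M L hL hi _ hc
    rw [hgd]
    simp only [hg]
    have e1' : ((hit l L M : ℕ) : ℝ) ≤ ((hitE l i (L.eraseIdx i) M : ℕ) : ℝ) := by exact_mod_cast e1
    have e2' : ((hitE l i (L.eraseIdx i) M : ℕ) : ℝ) ≤ ((hit l L M : ℕ) : ℝ) +
        ((cntLit l [] ((L.eraseIdx i).map toGC) (L[i].1.1 0, L[i].2 0) M : ℕ) : ℝ) := by
      exact_mod_cast e2
    rw [← neg_sub, neg_sq]
    exact pow_le_pow_left₀ (by linarith) (by linarith) 2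
  refine h1.trans ?_
  rw [lavg_eraseIdx hi g d]
  refine avg_le_const fun a => ?_
  rw [← lavg_take (Nat.sub_le M 1) (g a), ← lavg_lit_eq κ n M l (a.1.1 0, a.2 0)]
  refine le_of_eq (lavg_congr fun L => ?_)
  simp only [hg]
  congr 2
  unfold cntLit
  congr 1
  refine Finset.filter_congr fun m hm => ?_
  rw [Finset.mem_range] at hm
  have : ((L.take (M - 1)).map toGC).take m = (L.map toGC).take m := by
    rw [← List.map_take, ← List.map_take, List.take_take, min_eq_left (by omega)]
  rw [this]

end Crest.Agent.RS
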