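import Mathlib
import Crest.Agent.RS.Defs
import Crest.Agent.RS.Incr

/-! Chunk R153-SATPROB: link with `satProb`, moments of the truncated hitting time. -/

set_option autoImplicit false

namespace Crest.Agent.RS

open Finset Crest.ProbabilityR.RandomSAT

open Classical in
/-- `satProb` as a list average (`lavg_eq_avg_fin`, `alive_zero_iff`, `uniformProb`). -/
theorem satProb_eq (k n m : ℕ) :
    satProb k n m = lavg (Clause k n) m (fun L => if Alive 0 (L.map toGC) then (1 : ℝ) else 0) := by
  rw [lavg_eq_avg_fin]
  unfold satProb Crest.FinProb.uniformProb avg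
  congr 1
  rw [Finset.sum_congr rfl (fun F _ => if_congr (alive_zero_iff (F : Fin m → Clause k n)) rfl rfl)]
  rw [Finset.sum_boole]
  congr 2

theorem lavg_prod {α : Type*} [Fintype α] (m : ℕ) (f : α → ℝ) :
    lavg α m (fun L => (L.map f).prod) = (avg f) ^ m := by
  induction m with
  | zero => simp
  | succ m ih =>
    rw [lavg_succ]
    simp only [List.map_cons, List.prod_cons]
    rw [avg_congr (fun a => lavg_mul_left m (f a) _), ih, avg_mul_right, pow_succ, mul_comm]

open Classical in
theorem avg_clauseSat {k n : ℕ} (h : k ≤ n) (σ : Fin n → Bool) :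
    avg (fun c : Clause k n => if ClauseSat σ c then (1 : ℝ) else 0) = 1 - 1 / 2 ^ k := by
  have hne := nonempty_clause h
  have hne' : Nonempty {v : Fin k → Fin n // Function.Injective v} := ⟨hne.some.1⟩
  rw [avg_prod]
  have h1 : ∀ v : {v : Fin k → Fin n // Function.Injective v},
      avg (fun s : Fin k → Bool => if ClauseSat σ ((v, s) : Clause k n) then (1 : ℝ) else 0) =
        1 - 1 / 2 ^ k := by
    intro v
    have h2 : ∀ s : Fin k → Bool, (if ClauseSat σ ((v, s) : Clause k n) then (1 : ℝ) else 0) =
        1 - (if s = (fun i => !(σ (v.1 i))) then (1 : ℝ) else 0) := by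
      intro s
      by_cases hs : s = (fun i => !(σ (v.1 i)))
      · have : ¬ ClauseSat σ ((v, s) : Clause k n) := by
          rintro ⟨i, hi⟩
          subst hs
          simp at hi
        rw [if_neg this, if_pos hs, sub_self]
      · have : ClauseSat σ ((v, s) : Clause k n) := by
          by_contra hc
          refine hs (funext fun i => ?_)
          unfold ClauseSat at hc
          push Not at hc
          have := hc i
          simp only at this
          cases h1 : σ (v.1 i) <;> cases h2 : s i <;> simp_all
        rw [if_pos this, if_neg hs, sub_zero]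
    rw [avg_congr h2, avg_sub, avg_const]
    congr 1
    unfold avg
    rw [Finset.sum_ite_eq']
    simp
  rw [avg_congr h1, avg_const]

/-- First moment bound: `satProb k n m ≤ 2^n (1 - 2^(-k))^m` for `k ≤ n` (union bound over `σ`, each clause
is satisfied by `σ` with probability `1 - 2^(-k)`). -/
theorem satProb_le {k n : ℕ} (h : k ≤ n) (m : ℕ) :
    satProb k n m ≤ 2 ^ n * (1 - 1 / 2 ^ k) ^ m := by
  classical
  rw [satProb_eq]
  have h1 : ∀ L : List (Clause k n), (if Alive 0 (L.map toGC) then (1 : ℝ) else 0) ≤
      ∑ σ : Fin n → Bool, (L.map (fun c => if ClauseSat σ c then (1 : ℝ) else 0)).prod := by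
    intro L
    have hnn : ∀ σ : Fin n → Bool,
        0 ≤ (L.map (fun c => if ClauseSat σ c then (1 : ℝ) else 0)).prod := by
      intro σ
      refine List.prod_nonneg fun a ha => ?_
      obtain ⟨c, _, rfl⟩ := List.mem_map.1 ha
      split_ifs <;> norm_num
    split_ifs with hA
    · obtain ⟨σ, hσ⟩ := hA
      refine le_trans ?_ (Finset.single_le_sum (fun σ _ => hnn σ) (Finset.mem_univ σ))
      have h2 : ∀ c ∈ L, ClauseSat σ c := by
        intro c hc
        have h3 : viol (L.map toGC) σ = 0 := Nat.le_zero.1 hσ
        unfold viol at h3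
        rw [List.countP_eq_zero] at h3
        have h4 := h3 (toGC c) (List.mem_map_of_mem hc)
        simpa [gsat_toGC] using h4
      rw [List.map_congr_left (fun c hc => if_pos (h2 c hc))]
      simp
    · exact Finset.sum_nonneg fun σ _ => hnn σ
  refine (lavg_mono h1).trans ?_
  rw [lavg_sum]
  rw [Finset.sum_congr rfl (fun σ _ => by rw [lavg_prod, avg_clauseSat h σ])]
  simp

theorem satProb_nonneg (k n m : ℕ) : 0 ≤ satProb k n m := by
  unfold satProb Crest.FinProb.uniformProb
  positivity

/-- `satProb k n m` for `m ≤ M` as average over streams of length `M` (`lavg_take`). -/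
theorem satProb_eq_take {k n : ℕ} (h : k ≤ n) {m M : ℕ} (hm : m ≤ M) [∀ L : List (Clause k n),
    Decidable (Alive 0 ((L.take m).map toGC))] :
    satProb k n m = lavg (Clause k n) M (fun L => if Alive 0 ((L.take m).map toGC) then (1 : ℝ) else 0) := by
  have hne := nonempty_clause h
  classical
  rw [satProb_eq, ← lavg_take hm]
  exact lavg_congr fun L => by congr

/-- mean of the truncated hitting time -/
theorem lavg_hit {k n : ℕ} (h : k ≤ n) (M : ℕ) :
    lavg (Clause k n) M (fun L => ((hit 0 L M : ℕ) : ℝ)) = ∑ m ∈ range M, satProb k n m := by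
  classical
  have h1 : ∀ L : List (Clause k n), ((hit 0 L M : ℕ) : ℝ) =
      ∑ m ∈ range M, if Alive 0 ((L.take m).map toGC) then (1 : ℝ) else 0 := by
    intro L
    unfold hit
    rw [Finset.sum_boole]
  rw [lavg_congr h1, lavg_sum]
  exact Finset.sum_congr rfl fun m hm => (satProb_eq_take h (Finset.mem_range.1 hm).le).symm

/-- second moment of the truncated hitting time: the times counted in `hit 0 L M` are an initial segment
`{m < hit}` of `ℕ` (monotonicity), and `Σ_{m<h} (2m+1) = h^2`. -/
theorem lavg_hit_sq {k n : ℕ} (h : k ≤ n) (M : ℕ) :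
    lavg (Clause k n) M (fun L => ((hit 0 L M : ℕ) : ℝ) ^ 2) =
      ∑ m ∈ range M, (2 * (m : ℝ) + 1) * satProb k n m := by
  classical
  have h0 : ∀ N : ℕ, ∑ m ∈ range N, (2 * (m : ℝ) + 1) = (N : ℝ) ^ 2 := by
    intro N
    induction N with
    | zero => simp
    | succ N ih => rw [Finset.sum_range_succ, ih]; push_cast; ring
  have h1 : ∀ L : List (Clause k n), ((hit 0 L M : ℕ) : ℝ) ^ 2 =
      ∑ m ∈ range M, (2 * (m : ℝ) + 1) * (if Alive 0 ((L.take m).map toGC) then (1 : ℝ) else 0) := by
    intro L
    have hS : (range M).filter (fun m => Alive 0 ((L.take m).map toGC)) = range (hit 0 L M) := by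
      have hmono : ∀ a b : ℕ, a ≤ b → Alive 0 ((L.take b).map toGC) →
          Alive 0 ((L.take a).map (toGC (n := n))) := by
        intro a b hab hb
        exact Alive.of_sublist ((List.take_sublist_take_left hab).map _) hb
      set S := (range M).filter (fun m => Alive 0 ((L.take m).map toGC)) with hSdef
      have hcard : hit 0 L M = S.card := by
        unfold hit
        rw [hSdef]
      have hlow : ∀ b ∈ S, ∀ a ≤ b, a ∈ S := by
        intro b hb a hab
        rw [hSdef, Finset.mem_filter, Finset.mem_range] at hb ⊢
        exact ⟨lt_of_le_of_lt hab hb.1, hmono a b hab hb.2⟩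
      rw [hcard]
      have hsub : S ⊆ range S.card := by
        intro b hb
        rw [Finset.mem_range]
        have : range (b + 1) ⊆ S := by
          intro a ha
          exact hlow b hb a (Nat.lt_succ_iff.1 (Finset.mem_range.1 ha))
        have h2 := Finset.card_le_card this
        rw [Finset.card_range] at h2
        omega
      exact Finset.eq_of_subset_of_card_le hsub (by rw [Finset.card_range])
    simp only [mul_ite, mul_one, mul_zero]
    rw [← Finset.sum_filter, hS, h0]
  rw [lavg_congr h1, lavg_sum]
  refine Finset.sum_congr rfl fun m hm => ?_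
  rw [lavg_mul_left, ← satProb_eq_take h (Finset.mem_range.1 hm).le]

end Crest.Agent.RS
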