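import Mathlib
import Crest.Agent.RS.Defs
import Crest.Agent.RS.Kill

/-! Chunk R153-KEYA: pathwise ingredients of the key bound. -/

set_option autoImplicit false

namespace Crest.Agent.RS

open Finset Crest.ProbabilityR.RandomSAT

private theorem sq_sum_le_pairs (M : ℕ) (a : ℕ → ℝ) (ha : ∀ m, 0 ≤ a m) :
    (∑ m ∈ range M, a m) ^ 2 ≤
      2 * ∑ m ∈ range M, ∑ m' ∈ range M, if m ≤ m' then a m * a m' else 0 := by
  have h1 : (∑ m ∈ range M, a m) ^ 2 = ∑ m ∈ range M, ∑ m' ∈ range M, a m * a m' := by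
    rw [pow_two, Finset.sum_mul_sum]
  have h2 : (∑ m ∈ range M, ∑ m' ∈ range M, if m ≤ m' then a m * a m' else 0) =
      ∑ m ∈ range M, ∑ m' ∈ range M, if m' ≤ m then a m * a m' else 0 := by
    rw [Finset.sum_comm]
    refine Finset.sum_congr rfl fun m _ => Finset.sum_congr rfl fun m' _ => ?_
    by_cases h : m' ≤ m
    · rw [if_pos h, if_pos h, mul_comm]
    · rw [if_neg h, if_neg h]
  rw [h1, two_mul]
  nth_rewrite 2 [h2]
  rw [← Finset.sum_add_distrib]
  refine Finset.sum_le_sum fun m _ => ?_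
  rw [← Finset.sum_add_distrib]
  refine Finset.sum_le_sum fun m' _ => ?_
  have h3 : 0 ≤ a m * a m' := mul_nonneg (ha m) (ha m')
  rcases le_total m m' with h | h
  · rw [if_pos h]
    split_ifs <;> linarith
  · rw [if_pos h]
    split_ifs <;> linarith

/-- Pair form of the square of a count: `(#S)^2 ≤ 2 #{(m,m') : m ≤ m', m ∈ S, m' ∈ S}`; here `S` is the set
counted by `cntCl`, and membership of `m'` in `S` implies `Crit l (E ++ F.take m')` (`kill_imp`). -/
theorem cntCl_sq_le {n : ℕ} (l : ℕ) (E F : List (GC n)) (D : GC n) (M : ℕ)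
    [∀ m, Decidable (Alive l (E ++ F.take m) ∧ ¬ Alive l (D :: (E ++ F.take m)))]
    [∀ m, Decidable (Crit l (E ++ F.take m))] :
    ((cntCl l E F D M : ℕ) : ℝ) ^ 2 ≤ 2 * ∑ m ∈ range M, ∑ m' ∈ range M,
      if m ≤ m' ∧ Crit l (E ++ F.take m') then
        (if Alive l (E ++ F.take m) ∧ ¬ Alive l (D :: (E ++ F.take m)) then (1 : ℝ) else 0) else 0 := by
  have h1 : ((cntCl l E F D M : ℕ) : ℝ) = ∑ m ∈ range M,
      (if Alive l (E ++ F.take m) ∧ ¬ Alive l (D :: (E ++ F.take m)) then (1 : ℝ) else 0) := by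
    rw [← Finset.sum_filter, Finset.sum_const, nsmul_eq_mul, mul_one]
    unfold cntCl
    congr!
  rw [h1]
  refine (sq_sum_le_pairs M _ (fun m => by split_ifs <;> norm_num)).trans ?_
  refine mul_le_mul_of_nonneg_left ?_ (by norm_num)
  refine Finset.sum_le_sum fun m _ => Finset.sum_le_sum fun m' _ => ?_
  by_cases h : m ≤ m'
  · rw [if_pos h]
    by_cases h2 : Alive l (E ++ F.take m') ∧ ¬ Alive l (D :: (E ++ F.take m'))
    · have h3 : m ≤ m' ∧ Crit l (E ++ F.take m') := ⟨h, (kill_imp h2.1 h2.2).1⟩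
      rw [if_pos h2, mul_one, if_pos h3]
    · rw [if_neg h2, mul_zero]
      split_ifs <;> norm_num
  · rw [if_neg h, if_neg (fun h' => h h'.1)]

open Classical in
/-- Pair form for a literal: if `y` is dead at time `m`, alive formula at time `m' ≥ m`, then both `m` and
`m'` are counted in `cntLit` (monotonicity), hence the number of such pairs is `≤ cntLit^2`. -/
theorem pairs_le_cntLit_sq {n : ℕ} (l : ℕ) (E F : List (GC n)) (y : Lit n) (M : ℕ) :
    (∑ m ∈ range M, ∑ m' ∈ range M,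
      if m ≤ m' ∧ ¬ AliveLit l (E ++ F.take m) y ∧ Alive l (E ++ F.take m') then (1 : ℝ) else 0) ≤
      ((cntLit l E F y M : ℕ) : ℝ) ^ 2 := by
  have h1 : ((cntLit l E F y M : ℕ) : ℝ) = ∑ m ∈ range M,
      (if Alive l (E ++ F.take m) ∧ ¬ AliveLit l (E ++ F.take m) y then (1 : ℝ) else 0) := by
    rw [← Finset.sum_filter, Finset.sum_const, nsmul_eq_mul, mul_one]
    unfold cntLit
    congr!
  rw [h1, pow_two, Finset.sum_mul_sum]
  refine Finset.sum_le_sum fun m _ => Finset.sum_le_sum fun m' _ => ?_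
  by_cases h : m ≤ m' ∧ ¬ AliveLit l (E ++ F.take m) y ∧ Alive l (E ++ F.take m')
  · obtain ⟨hm, h2, h3⟩ := h
    have hs : (E ++ F.take m).Sublist (E ++ F.take m') :=
      (List.Sublist.refl E).append (List.take_sublist_take_left hm)
    rw [if_pos ⟨hm, h2, h3⟩, if_pos ⟨h3.of_sublist hs, h2⟩,
      if_pos ⟨h3, fun h4 => h2 (h4.of_sublist hs)⟩, mul_one]
  · rw [if_neg h]
    positivity

open Classical in
/-- Splitting the dead literals (for an alive formula): those outside the variables of the initial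
clauses `E` plus at most one per variable of `E`; with `|E| = r` clauses of length `≤ κ`:
`K ≤ out + r κ`, and for `N = n ≥ 1`, `0 < δ ≤ 1`:
`(K/2N)^2 ≤ 2 δ (out/2N) + 2·1(K ≥ 2 N δ) + 2 (rκ/2N)^2`
(`(K/2N)^2 ≤ 2 (out/2N)^2 + 2 (rκ/2N)^2`; if `out ≤ 2Nδ` then `(out/2N)^2 ≤ δ out/2N`, else
`K ≥ out ≥ 2Nδ` and `(out/2N)^2 ≤ 1`). -/
theorem dead_sq_le {n : ℕ} (hn : 1 ≤ n) (l κ : ℕ) (E G : List (GC n)) (hE : ∀ c ∈ E, c.length ≤ κ)
    (hA : Alive l G) (δ : ℝ) (hδ : 0 < δ) (hδ1 : δ ≤ 1) :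
    (((deadSet l G).card : ℝ) / (2 * n)) ^ 2 ≤
      2 * δ * ((∑ y : Lit n, if (∀ c ∈ E, ∀ z ∈ c, z.1 ≠ y.1) ∧ ¬ AliveLit l G y then (1 : ℝ) else 0)
        / (2 * n)) +
      2 * (if 2 * n * δ ≤ ((deadSet l G).card : ℝ) then 1 else 0) +
      2 * (((E.length : ℝ) * κ) / (2 * n)) ^ 2 := by
  set O : Finset (Lit n) := Finset.univ.filter
    (fun y => (∀ c ∈ E, ∀ z ∈ c, z.1 ≠ y.1) ∧ ¬ AliveLit l G y) with hO
  have hsum : (∑ y : Lit n, if (∀ c ∈ E, ∀ z ∈ c, z.1 ≠ y.1) ∧ ¬ AliveLit l G y then (1 : ℝ) else 0)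
      = (O.card : ℝ) := by
    rw [← Finset.sum_filter, Finset.sum_const, nsmul_eq_mul, mul_one]
  rw [hsum]
  have hOK : O ⊆ deadSet l G := by
    intro y hy
    rw [hO, Finset.mem_filter] at hy
    exact mem_deadSet.2 hy.2.2
  -- the dead literals on variables of `E`
  set V : Finset (Fin n) := (E.flatten.map Prod.fst).toFinset with hV
  have hVc : V.card ≤ E.length * κ := by
    refine (List.toFinset_card_le _).trans ?_
    rw [List.length_map]
    clear hV hO hOK hsum
    clear_value V O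
    induction E with
    | nil => simp
    | cons c E ih =>
      have h1 := ih (fun c' hc' => hE c' (List.mem_cons_of_mem _ hc'))
      have h2 := hE c List.mem_cons_self
      rw [List.flatten_cons, List.length_append, List.length_cons, Nat.add_mul, one_mul]
      omega
  have hdiff : (deadSet l G \ O).card ≤ V.card := by
    refine Finset.card_le_card_of_injOn (fun y => y.1) ?_ ?_
    · intro y hy
      rw [Finset.mem_coe, Finset.mem_sdiff, hO, Finset.mem_filter] at hy
      obtain ⟨hy1, hy2⟩ := hy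
      have hy3 : ¬ ∀ c ∈ E, ∀ z ∈ c, z.1 ≠ y.1 := fun h => hy2 ⟨Finset.mem_univ _, h, mem_deadSet.1 hy1⟩
      push Not at hy3
      obtain ⟨c, hc, z, hz, hzy⟩ := hy3
      rw [Finset.mem_coe, hV, List.mem_toFinset, List.mem_map]
      exact ⟨z, List.mem_flatten.2 ⟨c, hc, hz⟩, hzy⟩
    · intro y hy z hz hyz
      rw [Finset.mem_coe, Finset.mem_sdiff] at hy hz
      exact deadSet_inj hA y hy.1 z hz.1 hyz
  have hcard : (deadSet l G).card ≤ O.card + E.length * κ := by
    have h1 := Finset.card_sdiff_add_card_eq_card hOK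
    omega
  have hn0 : (0 : ℝ) < n := by exact_mod_cast hn
  have hKn : ((deadSet l G).card : ℝ) ≤ n := by exact_mod_cast card_deadSet_le hA
  have hOK' : (O.card : ℝ) ≤ (deadSet l G).card := by exact_mod_cast Finset.card_le_card hOK
  have hcard' : ((deadSet l G).card : ℝ) ≤ O.card + (E.length : ℝ) * κ := by exact_mod_cast hcard
  set K : ℝ := ((deadSet l G).card : ℝ)
  set o : ℝ := (O.card : ℝ)
  set r : ℝ := (E.length : ℝ) * κ
  have hK0 : 0 ≤ K := Nat.cast_nonneg _
  have ho0 : 0 ≤ o := Nat.cast_nonneg _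
  have hr0 : 0 ≤ r := by positivity
  have h1 : K / (2 * n) ≤ o / (2 * n) + r / (2 * n) := by
    rw [← add_div]
    gcongr
  have ha0 : 0 ≤ o / (2 * n) := by positivity
  have hb0 : 0 ≤ r / (2 * n) := by positivity
  have h2 : (K / (2 * n)) ^ 2 ≤ 2 * (o / (2 * n)) ^ 2 + 2 * (r / (2 * n)) ^ 2 := by
    have h3 : (K / (2 * n)) ^ 2 ≤ (o / (2 * n) + r / (2 * n)) ^ 2 :=
      pow_le_pow_left₀ (by positivity) h1 2
    nlinarith [sq_nonneg (o / (2 * n) - r / (2 * n))]
  refine h2.trans ?_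
  have h4 : (o / (2 * n)) ^ 2 ≤ δ * (o / (2 * n)) + (if 2 * n * δ ≤ K then 1 else 0) := by
    split_ifs with h5
    · have h6 : o / (2 * n) ≤ 1 := by
        rw [div_le_one (by positivity)]
        linarith
      nlinarith [mul_nonneg hδ.le ha0]
    · push Not at h5
      have h6 : o / (2 * n) ≤ δ := by
        rw [div_le_iff₀ (by positivity)]
        linarith
      nlinarith
  linarith

end Crest.Agent.RS
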