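import Mathlib
import Crest.Agent.RS.Avg

/-! Chunk R153-MARKOV: abstract hazard lemma. -/

set_option autoImplicit false

namespace Crest.Agent.RS

open Finset

private theorem markov_hazard {γ : Type*} [Fintype γ] [Nonempty γ] (Q : List γ → Prop)
    [DecidablePred Q] (p : ℝ) (B : ℝ) (hB : 0 ≤ B) (L0 : List γ)
    (hstep : p ≤ avg (fun c : γ => if Q (L0 ++ [c]) then (0 : ℝ) else 1))
    (f : γ → ℝ) (hf : ∀ c, f c ≤ if Q (L0 ++ [c]) then B else 0) :
    avg f ≤ (1 - p) * B := by
  have h1 : ∀ c, f c ≤ B - (if Q (L0 ++ [c]) then (0 : ℝ) else 1) * B := by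
    intro c
    refine (hf c).trans ?_
    split_ifs <;> simp
  calc avg f ≤ avg (fun c => B - (if Q (L0 ++ [c]) then (0 : ℝ) else 1) * B) := avg_mono h1
    _ = B - avg (fun c : γ => if Q (L0 ++ [c]) then (0 : ℝ) else 1) * B := by
        rw [avg_sub, avg_const, avg_mul_right]
    _ ≤ (1 - p) * B := by nlinarith

private theorem markov_a {γ : Type*} [Fintype γ] [Nonempty γ] (T Q : List γ → Prop)
    [DecidablePred T] [DecidablePred Q] (p : ℝ) (hp : 0 < p)
    (hstep : ∀ L, T L → p ≤ avg (fun c : γ => if Q (L ++ [c]) then (0 : ℝ) else 1))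
    (hpers : ∀ L c, T L → Q (L ++ [c]) → T (L ++ [c]))
    (hconv : ∀ L c L', T L → ¬ Q (L ++ [c]) → ¬ Q (L ++ [c] ++ L'))
    (s : ℕ) : ∀ L0 : List γ, T L0 →
    lavg γ s (fun L => ∑ m ∈ range s, if Q (L0 ++ L.take m) then (1 : ℝ) else 0) ≤ 1 / p := by
  induction s with
  | zero =>
    intro L0 _
    simp only [lavg_zero, range_zero, sum_empty]
    positivity
  | succ s ih =>
    intro L0 hT
    rw [lavg_succ]
    have h1 : ∀ c : γ, lavg γ s (fun L => ∑ m ∈ range (s + 1),
        if Q (L0 ++ (c :: L).take m) then (1 : ℝ) else 0) ≤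
        1 + lavg γ s (fun L => ∑ m ∈ range s,
          if Q ((L0 ++ [c]) ++ L.take m) then (1 : ℝ) else 0) := by
      intro c
      have h2 : ∀ L : List γ, (∑ m ∈ range (s + 1),
          if Q (L0 ++ (c :: L).take m) then (1 : ℝ) else 0) ≤
          1 + (∑ m ∈ range s, if Q ((L0 ++ [c]) ++ L.take m) then (1 : ℝ) else 0) := by
        intro L
        rw [sum_range_succ', add_comm]
        refine add_le_add ?_ (le_of_eq ?_)
        · split_ifs <;> norm_num
        · refine sum_congr rfl fun m _ => ?_
          have e : L0 ++ (c :: L).take (m + 1) = (L0 ++ [c]) ++ L.take m := by simp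
          rw [e]
      refine (lavg_mono h2).trans (le_of_eq ?_)
      rw [lavg_add, lavg_const]
    refine (avg_mono h1).trans ?_
    rw [avg_add, avg_const]
    have h3 := markov_hazard Q p (1 / p) (by positivity) L0 (hstep L0 hT)
      (fun c => lavg γ s (fun L => ∑ m ∈ range s,
          if Q ((L0 ++ [c]) ++ L.take m) then (1 : ℝ) else 0)) (by
        intro c
        split_ifs with hc
        · exact ih (L0 ++ [c]) (hpers L0 c hT hc)
        · refine le_of_eq ?_
          have : ∀ L : List γ, (∑ m ∈ range s,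
              if Q ((L0 ++ [c]) ++ L.take m) then (1 : ℝ) else 0) = 0 := by
            intro L
            refine sum_eq_zero fun m _ => ?_
            rw [if_neg (hconv L0 c _ hT hc)]
          rw [lavg_congr this, lavg_zero_fun])
    have h4 : (1 - p) * (1 / p) = 1 / p - 1 := by
      field_simp
    linarith

/-- `T`: "critical and many dead literals", `Q`: "critical". From a `T` state the next letter
destroys `Q` (for ever) with probability at least `p`, otherwise the state is still `T`.
Then the expected number of pairs `m ≤ m'` with `T` at time `m` and `Q` at time `m'` is at most `1/p^2`.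
Proof: prove by induction on `s`, for every prefix `L0`:
(a) if `T L0`: `lavg γ s (fun L => Σ_{m<s} 1(Q (L0 ++ L.take m))) ≤ 1/p`;
(b) for every `L0`: the pair sum with prefix `L0` is `≤ 1/p^2`.
(a), step `s+1`: the `m = 0` term is `1` (by `hTQ`), the rest is the average over the first letter `c`
of the sum with prefix `L0 ++ [c]` and length `s`: `0` if `¬ Q (L0 ++ [c])` (`hconv`), else `T (L0++[c])`
(`hpers`) and `≤ 1/p`; total `≤ 1 + (1-p)/p = 1/p`.
(b), step `s+1`, case `T L0`: the `m = 0` row is `≤ 1/p` by (a), the rest is the average over `c` of the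
pair sum with prefix `L0 ++ [c]`, which is `0` if `¬ Q (L0 ++ [c])` (all `Q` fail), else `≤ 1/p^2`:
total `≤ 1/p + (1-p)/p^2 = 1/p^2`. Case `¬ T L0`: the `m = 0` row is `0`. -/
theorem markov_pair {γ : Type*} [Fintype γ] [Nonempty γ] (T Q : List γ → Prop)
    [DecidablePred T] [DecidablePred Q] (p : ℝ) (hp : 0 < p) (hp1 : p ≤ 1)
    (hTQ : ∀ L, T L → Q L)
    (hstep : ∀ L, T L → p ≤ avg (fun c : γ => if Q (L ++ [c]) then (0 : ℝ) else 1))
    (hpers : ∀ L c, T L → Q (L ++ [c]) → T (L ++ [c]))
    (hconv : ∀ L c L', T L → ¬ Q (L ++ [c]) → ¬ Q (L ++ [c] ++ L'))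
    (s : ℕ) :
    lavg γ s (fun L => ∑ m ∈ range s, ∑ m' ∈ range s,
      if m ≤ m' ∧ T (L.take m) ∧ Q (L.take m') then (1 : ℝ) else 0) ≤ 1 / p ^ 2 := by
  suffices H : ∀ (s : ℕ) (L0 : List γ), lavg γ s (fun L => ∑ m ∈ range s, ∑ m' ∈ range s,
      if m ≤ m' ∧ T (L0 ++ L.take m) ∧ Q (L0 ++ L.take m') then (1 : ℝ) else 0) ≤ 1 / p ^ 2 by
    simpa using H s []
  clear s
  intro s
  induction s with
  | zero =>
    intro L0
    simp only [lavg_zero, range_zero, sum_empty]
    positivity
  | succ s ih =>
    intro L0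
    have hsplit : ∀ (c : γ) (L : List γ),
        (∑ m ∈ range (s + 1), ∑ m' ∈ range (s + 1),
          if m ≤ m' ∧ T (L0 ++ (c :: L).take m) ∧ Q (L0 ++ (c :: L).take m')
            then (1 : ℝ) else 0) =
        (∑ m ∈ range s, ∑ m' ∈ range s,
          if m ≤ m' ∧ T ((L0 ++ [c]) ++ L.take m) ∧ Q ((L0 ++ [c]) ++ L.take m')
            then (1 : ℝ) else 0) +
        (if T L0 then (∑ m ∈ range (s + 1), if Q (L0 ++ (c :: L).take m) then (1 : ℝ) else 0)
          else 0) := by
      intro c L
      rw [sum_range_succ']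
      congr 1
      · refine sum_congr rfl fun m _ => ?_
        rw [sum_range_succ']
        simp [List.append_assoc]
      · by_cases hT : T L0 <;> simp [hT]
    rw [lavg_succ]
    have h1 : avg (fun c : γ => lavg γ s (fun L => ∑ m ∈ range (s + 1), ∑ m' ∈ range (s + 1),
          if m ≤ m' ∧ T (L0 ++ (c :: L).take m) ∧ Q (L0 ++ (c :: L).take m')
            then (1 : ℝ) else 0)) =
        avg (fun c : γ => lavg γ s (fun L => ∑ m ∈ range s, ∑ m' ∈ range s,
          if m ≤ m' ∧ T ((L0 ++ [c]) ++ L.take m) ∧ Q ((L0 ++ [c]) ++ L.take m')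
            then (1 : ℝ) else 0)) +
        lavg γ (s + 1) (fun L => if T L0 then
          (∑ m ∈ range (s + 1), if Q (L0 ++ L.take m) then (1 : ℝ) else 0) else 0) := by
      rw [lavg_succ, ← avg_add]
      refine avg_congr fun c => ?_
      rw [← lavg_add]
      exact lavg_congr fun L => hsplit c L
    rw [h1]
    by_cases hT : T L0
    · have h2 : lavg γ (s + 1) (fun L => if T L0 then
          (∑ m ∈ range (s + 1), if Q (L0 ++ L.take m) then (1 : ℝ) else 0) else 0) ≤ 1 / p := by
        have := markov_a T Q p hp hstep hpers hconv (s + 1) L0 hT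
        simpa [hT] using this
      have h3 := markov_hazard Q p (1 / p ^ 2) (by positivity) L0 (hstep L0 hT)
        (fun c => lavg γ s (fun L => ∑ m ∈ range s, ∑ m' ∈ range s,
          if m ≤ m' ∧ T ((L0 ++ [c]) ++ L.take m) ∧ Q ((L0 ++ [c]) ++ L.take m')
            then (1 : ℝ) else 0)) (by
          intro c
          split_ifs with hc
          · exact ih (L0 ++ [c])
          · refine le_of_eq ?_
            have : ∀ L : List γ, (∑ m ∈ range s, ∑ m' ∈ range s,
                if m ≤ m' ∧ T ((L0 ++ [c]) ++ L.take m) ∧ Q ((L0 ++ [c]) ++ L.take m')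
                  then (1 : ℝ) else 0) = 0 := by
              intro L
              refine sum_eq_zero fun m _ => sum_eq_zero fun m' _ => ?_
              rw [if_neg]
              rintro ⟨_, _, h⟩
              exact hconv L0 c _ hT hc h
            rw [lavg_congr this, lavg_zero_fun])
      have h4 : (1 - p) * (1 / p ^ 2) = 1 / p ^ 2 - 1 / p := by
        field_simp
      linarith
    · have h2 : lavg γ (s + 1) (fun L => if T L0 then
          (∑ m ∈ range (s + 1), if Q (L0 ++ L.take m) then (1 : ℝ) else 0) else 0) = 0 := by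
        simp only [hT, if_false]
        exact lavg_zero_fun _
      rw [h2, add_zero]
      exact avg_le_const fun c => ih (L0 ++ [c])

end Crest.Agent.RS
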