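import Mathlib
import Crest.Agent.RS.Defs
import Crest.Agent.RS.Kill
import Crest.Agent.RS.Markov
import Crest.Agent.RS.Sym
import Crest.Agent.RS.KeyA

/-! Chunk R153-KEY: the bound `U ≤ 4 δ V + const`. -/

set_option autoImplicit false

namespace Crest.Agent.RS

open Finset Crest.ProbabilityR.RandomSAT

/-- averages of conditional terms -/
private theorem key_avg_ite {α : Type*} [Fintype α] (P : Prop) [Decidable P] (g : α → ℝ) :
    avg (fun a => if P then g a else 0) = if P then avg g else 0 := by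
  split_ifs
  · rfl
  · exact avg_zero

private theorem key_sum (M : ℕ) (x c : ℝ) (a b : ℕ → ℕ → ℝ) :
    2 * ∑ m ∈ range M, ∑ m' ∈ range M, (x * a m m' + 2 * b m m' + c) =
      2 * x * (∑ m ∈ range M, ∑ m' ∈ range M, a m m') +
        4 * (∑ m ∈ range M, ∑ m' ∈ range M, b m m') + 2 * (M : ℝ) ^ 2 * c := by
  simp only [Finset.sum_add_distrib, ← Finset.mul_sum, Finset.sum_const, card_range, nsmul_eq_mul]
  ring

open Classical in
/-- one pair of times -/
private theorem key_pair {κ n : ℕ} (l r : ℕ) (δ : ℝ) (hκ : 2 ≤ κ) (hn : κ ≤ n) (hδ : 0 < δ)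
    (hδ1 : δ ≤ 1) (E F : List (GC (n + 1))) (hE : ∀ c ∈ E, c.length ≤ κ) (hEr : E.length = r)
    (m m' : ℕ) :
    (if m ≤ m' ∧ Crit l (E ++ F.take m') then
      avg (fun D : Clause κ (n + 1) =>
        if Alive l (E ++ F.take m) ∧ ¬ Alive l (toGC D :: (E ++ F.take m)) then (1 : ℝ) else 0)
      else 0) ≤
    (δ / (n + 1)) * (∑ y : Lit (n + 1), if ∀ c ∈ E, ∀ z ∈ c, z.1 ≠ y.1 then
        (if m ≤ m' ∧ ¬ AliveLit l (E ++ F.take m) y ∧ Alive l (E ++ F.take m') then (1 : ℝ) else 0)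
        else 0) +
      2 * (if m ≤ m' ∧ (Crit l (E ++ F.take m) ∧
          2 * ((n : ℝ) + 1) * δ ≤ ((deadSet l (E ++ F.take m)).card : ℝ)) ∧
          Crit l (E ++ F.take m') then (1 : ℝ) else 0) +
      2 * (((r : ℝ) * κ) / (2 * ((n : ℝ) + 1))) ^ 2 := by
  have hN : (0 : ℝ) < (n : ℝ) + 1 := by positivity
  have hA0 : 0 ≤ (δ / (n + 1)) * (∑ y : Lit (n + 1), if ∀ c ∈ E, ∀ z ∈ c, z.1 ≠ y.1 then
        (if m ≤ m' ∧ ¬ AliveLit l (E ++ F.take m) y ∧ Alive l (E ++ F.take m') then (1 : ℝ) else 0)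
        else 0) := by
    refine mul_nonneg (by positivity) (Finset.sum_nonneg fun y _ => ?_)
    split_ifs <;> simp
  have hB0 : 0 ≤ 2 * (if m ≤ m' ∧ (Crit l (E ++ F.take m) ∧
          2 * ((n : ℝ) + 1) * δ ≤ ((deadSet l (E ++ F.take m)).card : ℝ)) ∧
          Crit l (E ++ F.take m') then (1 : ℝ) else 0) := by
    split_ifs <;> simp
  have hC0 : 0 ≤ 2 * (((r : ℝ) * κ) / (2 * ((n : ℝ) + 1))) ^ 2 := by positivity
  by_cases hP : m ≤ m' ∧ Crit l (E ++ F.take m')
  · rw [if_pos hP]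
    refine (avg_kill_le hκ (by omega) (E ++ F.take m)).trans ?_
    by_cases hc : Crit l (E ++ F.take m)
    · rw [if_pos hc]
      have h1 := dead_sq_le (n := n + 1) (by omega) l κ E (E ++ F.take m) hE hc.1 δ hδ hδ1
      rw [hEr] at h1
      push_cast at h1 ⊢
      have e1 : (∑ y : Lit (n + 1), if (∀ c ∈ E, ∀ z ∈ c, z.1 ≠ y.1) ∧
            ¬ AliveLit l (E ++ F.take m) y then (1 : ℝ) else 0) =
          (∑ y : Lit (n + 1), if ∀ c ∈ E, ∀ z ∈ c, z.1 ≠ y.1 then
            (if m ≤ m' ∧ ¬ AliveLit l (E ++ F.take m) y ∧ Alive l (E ++ F.take m') then (1 : ℝ)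
              else 0) else 0) := by
        refine Finset.sum_congr rfl fun y _ => ?_
        by_cases hy : ∀ c ∈ E, ∀ z ∈ c, z.1 ≠ y.1
        · rw [if_pos hy]
          by_cases hd : AliveLit l (E ++ F.take m) y
          · rw [if_neg (fun h => h.2 hd), if_neg (fun h => h.2.1 hd)]
          · rw [if_pos ⟨hy, hd⟩, if_pos ⟨hP.1, hd, hP.2.1⟩]
        · rw [if_neg (fun h => hy h.1), if_neg hy]
      have e2 : (if 2 * ((n : ℝ) + 1) * δ ≤ ((deadSet l (E ++ F.take m)).card : ℝ) then (1 : ℝ)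
            else 0) =
          (if m ≤ m' ∧ (Crit l (E ++ F.take m) ∧
            2 * ((n : ℝ) + 1) * δ ≤ ((deadSet l (E ++ F.take m)).card : ℝ)) ∧
            Crit l (E ++ F.take m') then (1 : ℝ) else 0) := by
        by_cases hd : 2 * ((n : ℝ) + 1) * δ ≤ ((deadSet l (E ++ F.take m)).card : ℝ)
        · rw [if_pos hd, if_pos ⟨hP.1, ⟨hc, hd⟩, hP.2⟩]
        · rw [if_neg hd, if_neg (fun h => hd h.2.1.2)]
      rw [e1, e2] at h1
      refine h1.trans (le_of_eq ?_)
      have e3 : ∀ x : ℝ, 2 * δ * (x / (2 * ((n : ℝ) + 1))) = (δ / (n + 1)) * x := by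
        intro x; field_simp
      rw [e3]
    · rw [if_neg hc]
      linarith
  · rw [if_neg hP]
    linarith

open Classical in
/-- pathwise bound -/
private theorem key_path {κ n : ℕ} (l r M : ℕ) (δ : ℝ) (hκ : 2 ≤ κ) (hn : κ ≤ n) (hδ : 0 < δ)
    (hδ1 : δ ≤ 1) (E F : List (GC (n + 1))) (hE : ∀ c ∈ E, c.length ≤ κ) (hEr : E.length = r) :
    avg (fun D : Clause κ (n + 1) => ((cntCl l E F (toGC D) M : ℕ) : ℝ) ^ 2) ≤
    (2 * δ / (n + 1)) * (∑ y : Lit (n + 1), if ∀ c ∈ E, ∀ z ∈ c, z.1 ≠ y.1 then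
        ((cntLit l E F y M : ℕ) : ℝ) ^ 2 else 0) +
      4 * (∑ m ∈ range M, ∑ m' ∈ range M, if m ≤ m' ∧ (Crit l (E ++ F.take m) ∧
          2 * ((n : ℝ) + 1) * δ ≤ ((deadSet l (E ++ F.take m)).card : ℝ)) ∧
          Crit l (E ++ F.take m') then (1 : ℝ) else 0) +
      ((r : ℝ) * κ * M / (n + 1)) ^ 2 := by
  have hN : (0 : ℝ) < (n : ℝ) + 1 := by positivity
  have s1 : avg (fun D : Clause κ (n + 1) => ((cntCl l E F (toGC D) M : ℕ) : ℝ) ^ 2) ≤
      2 * ∑ m ∈ range M, ∑ m' ∈ range M, if m ≤ m' ∧ Crit l (E ++ F.take m') then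
        avg (fun D : Clause κ (n + 1) =>
          if Alive l (E ++ F.take m) ∧ ¬ Alive l (toGC D :: (E ++ F.take m)) then (1 : ℝ) else 0)
        else 0 := by
    refine (avg_mono (fun D => cntCl_sq_le l E F (toGC D) M)).trans (le_of_eq ?_)
    rw [avg_mul_left, avg_sum]
    congr 1
    refine Finset.sum_congr rfl fun m _ => ?_
    rw [avg_sum]
    refine Finset.sum_congr rfl fun m' _ => ?_
    exact key_avg_ite _ _
  refine s1.trans ?_
  have s2 := Finset.sum_le_sum (s := range M) fun m (_ : m ∈ range M) =>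
    Finset.sum_le_sum (s := range M) fun m' (_ : m' ∈ range M) =>
      key_pair l r δ hκ hn hδ hδ1 E F hE hEr m m'
  refine (mul_le_mul_of_nonneg_left s2 (by norm_num : (0 : ℝ) ≤ 2)).trans ?_
  rw [key_sum]
  have hA : (∑ m ∈ range M, ∑ m' ∈ range M, ∑ y : Lit (n + 1),
      if ∀ c ∈ E, ∀ z ∈ c, z.1 ≠ y.1 then
        (if m ≤ m' ∧ ¬ AliveLit l (E ++ F.take m) y ∧ Alive l (E ++ F.take m') then (1 : ℝ) else 0)
        else 0) ≤
      ∑ y : Lit (n + 1), if ∀ c ∈ E, ∀ z ∈ c, z.1 ≠ y.1 then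
        ((cntLit l E F y M : ℕ) : ℝ) ^ 2 else 0 := by
    have e1 : (∑ m ∈ range M, ∑ m' ∈ range M, ∑ y : Lit (n + 1),
      if ∀ c ∈ E, ∀ z ∈ c, z.1 ≠ y.1 then
        (if m ≤ m' ∧ ¬ AliveLit l (E ++ F.take m) y ∧ Alive l (E ++ F.take m') then (1 : ℝ) else 0)
        else 0) = ∑ y : Lit (n + 1), ∑ m ∈ range M, ∑ m' ∈ range M,
      if ∀ c ∈ E, ∀ z ∈ c, z.1 ≠ y.1 then
        (if m ≤ m' ∧ ¬ AliveLit l (E ++ F.take m) y ∧ Alive l (E ++ F.take m') then (1 : ℝ) else 0)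
        else 0 := by
      refine (Finset.sum_congr rfl fun m _ => Finset.sum_comm).trans ?_
      exact Finset.sum_comm
    rw [e1]
    refine Finset.sum_le_sum fun y _ => ?_
    by_cases hy : ∀ c ∈ E, ∀ z ∈ c, z.1 ≠ y.1
    · simp only [if_pos hy]
      exact pairs_le_cntLit_sq l E F y M
    · simp only [if_neg hy, Finset.sum_const_zero]
      exact le_rfl
  have h3 : 2 * (M : ℝ) ^ 2 * (2 * (((r : ℝ) * κ) / (2 * ((n : ℝ) + 1))) ^ 2) =
      ((r : ℝ) * κ * M / (n + 1)) ^ 2 := by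
    field_simp
  have h4 : 2 * (δ / ((n : ℝ) + 1)) = 2 * δ / (n + 1) := by ring
  rw [h3, h4]
  gcongr

/-- The key bound.
Proof: `cntCl_sq_le`, then average over `D` inside (`avg_kill_le`; the sums over `m,m'` go outside by
`avg_sum`, `lavg_sum`), then `dead_sq_le` with `G = E ++ F.take m` (alive because critical), `n+1`
variables:
`Uq ≤ 2 E_E E_F Σ_{m≤m'} 1(Crit_m) 1(Crit_m') [2δ out_m/(2(n+1)) + 2·1(K_m ≥ 2(n+1)δ) + 2(rκ/2(n+1))^2]`.
First term: `Σ_y 1(y ∉ vars E) Σ_{m≤m'} 1(y dead at m) 1(alive at m') ≤ Σ_y 1(y ∉ vars E) cntLit(y)^2`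
(`pairs_le_cntLit_sq`), average `≤ 2(n+1) Vq` by `sum_lit_le`: contributes `≤ 4 δ Vq`.
Second term: `markov_pair` for every fixed `E` with `T L = Crit l (E++L) ∧ 2(n+1)δ ≤ #deadSet`,
`Q L = Crit l (E ++ L)` (`L` mapped by `toGC`), `p = (δ/2)^(κ+1)`: `hstep` by `le_avg_kill` (a killed
formula is not critical), `hpers` by `deadSet_mono`, `hconv`: critical before, not critical after ⇒ not
alive ⇒ never alive again; contributes `≤ 4/p^2`.
Third term: at most `M^2` pairs `m, m' < M`: `≤ 4 (rκ/(2(n+1)))^2 M^2 = (rκM/(n+1))^2`. -/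
theorem Uq_le (κ n r M l : ℕ) (δ : ℝ) (hκ : 2 ≤ κ) (hn : κ ≤ n) (hδ : 0 < δ) (hδ1 : δ ≤ 1)
    (hnδ : (κ : ℝ) + 1 ≤ ((n : ℝ) + 1) * δ) :
    Uq κ (n + 1) r M l ≤ 4 * δ * Vq κ n r M l + 4 * (1 / ((δ / 2) ^ (κ + 1)) ^ 2) +
      ((r : ℝ) * κ * M / (n + 1)) ^ 2 := by
  classical
  have hN : (0 : ℝ) < (n : ℝ) + 1 := by positivity
  have : Nonempty (Clause (κ + 1) (n + 1)) := nonempty_clause (by omega)
  have : Nonempty (Clause κ (n + 1)) := nonempty_clause (by omega)
  -- the Markov bound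
  have hmk : ∀ E : List (GC (n + 1)), lavg (Clause (κ + 1) (n + 1)) M (fun F =>
      ∑ m ∈ range M, ∑ m' ∈ range M, if m ≤ m' ∧ (Crit l (E ++ (F.map toGC).take m) ∧
          2 * ((n : ℝ) + 1) * δ ≤ ((deadSet l (E ++ (F.map toGC).take m)).card : ℝ)) ∧
          Crit l (E ++ (F.map toGC).take m') then (1 : ℝ) else 0) ≤
        1 / ((δ / 2) ^ (κ + 1)) ^ 2 := by
    intro E
    have hp : 0 < (δ / 2) ^ (κ + 1) := by positivity
    have hp1 : (δ / 2) ^ (κ + 1) ≤ 1 := pow_le_one₀ (by positivity) (by linarith)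
    have key := markov_pair (γ := Clause (κ + 1) (n + 1))
      (fun L => Crit l (E ++ L.map toGC) ∧
        2 * ((n : ℝ) + 1) * δ ≤ ((deadSet l (E ++ L.map toGC)).card : ℝ))
      (fun L => Crit l (E ++ L.map toGC)) ((δ / 2) ^ (κ + 1)) hp hp1 (fun L h => h.1)
      (by
        intro L hL
        have h1 := le_avg_kill (k := κ + 1) (E ++ L.map toGC) hL.1 δ hδ hδ1
          (by push_cast; exact hnδ) (by push_cast; exact hL.2)
        refine h1.trans (avg_mono fun c => ?_)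
        by_cases hk : Alive l (toGC c :: (E ++ L.map toGC))
        · rw [if_neg (not_not.mpr hk)]
          split_ifs <;> norm_num
        · rw [if_pos hk, if_neg]
          intro hcr
          refine hk ((alive_perm ?_).mp hcr.1)
          rw [List.map_append, List.map_singleton, ← List.append_assoc]
          exact List.perm_append_singleton _ _)
      (by
        intro L c hL hQ
        refine ⟨hQ, hL.2.trans ?_⟩
        have : deadSet l (E ++ L.map toGC) ⊆ deadSet l (E ++ (L ++ [c]).map toGC) := by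
          refine deadSet_mono ?_
          rw [List.map_append, ← List.append_assoc]
          exact List.sublist_append_left _ _
        exact_mod_cast Finset.card_le_card this)
      (by
        intro L c L' hL hnQ hQ
        refine hnQ ⟨Alive.of_sublist ?_ hQ.1, fun σ => (hL.1.2 σ).trans (viol_sublist ?_ σ)⟩
        · rw [List.map_append (l₁ := L ++ [c]), ← List.append_assoc]
          exact List.sublist_append_left _ _
        · rw [List.map_append, ← List.append_assoc]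
          exact List.sublist_append_left _ _)
      M
    refine le_trans (le_of_eq ?_) key
    refine lavg_congr fun F => ?_
    simp only [List.map_take]
  unfold Uq
  have step1 : lavg (Clause κ (n + 1)) r (fun E => avg (fun D : Clause κ (n + 1) =>
      lavg (Clause (κ + 1) (n + 1)) M (fun F =>
        ((cntCl l (E.map toGC) (F.map toGC) (toGC D) M : ℕ) : ℝ) ^ 2))) ≤
      lavg (Clause κ (n + 1)) r (fun E => lavg (Clause (κ + 1) (n + 1)) M (fun F =>
        (2 * δ / (n + 1)) * (∑ y : Lit (n + 1), if ∀ c ∈ E.map toGC, ∀ z ∈ c, z.1 ≠ y.1 then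
          ((cntLit l (E.map toGC) (F.map toGC) y M : ℕ) : ℝ) ^ 2 else 0)) +
        (4 * (1 / ((δ / 2) ^ (κ + 1)) ^ 2) + ((r : ℝ) * κ * M / (n + 1)) ^ 2)) := by
    refine lavg_mono_length fun E hE => ?_
    rw [← lavg_avg_comm]
    have hlen : ∀ c ∈ E.map toGC, c.length ≤ κ := by
      intro c hc
      obtain ⟨c', _, rfl⟩ := List.mem_map.mp hc
      exact (length_toGC c').le
    refine (lavg_mono (fun F => key_path l r M δ hκ hn hδ hδ1 (E.map toGC) (F.map toGC) hlen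
      (by rw [List.length_map, hE]))).trans ?_
    rw [lavg_add, lavg_add, lavg_mul_left (c := (4 : ℝ)), lavg_const, add_assoc]
    have := hmk (E.map toGC)
    gcongr
  refine step1.trans ?_
  rw [lavg_add, lavg_const, add_assoc]
  gcongr
  have step2 : lavg (Clause κ (n + 1)) r (fun E => lavg (Clause (κ + 1) (n + 1)) M (fun F =>
        (2 * δ / (n + 1)) * (∑ y : Lit (n + 1), if ∀ c ∈ E.map toGC, ∀ z ∈ c, z.1 ≠ y.1 then
          ((cntLit l (E.map toGC) (F.map toGC) y M : ℕ) : ℝ) ^ 2 else 0))) =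
      (2 * δ / (n + 1)) * ∑ y : Lit (n + 1), lavg (Clause κ (n + 1)) r (fun E =>
        lavg (Clause (κ + 1) (n + 1)) M (fun F =>
          (if ∀ c ∈ E.map toGC, ∀ z ∈ c, z.1 ≠ y.1 then
          ((cntLit l (E.map toGC) (F.map toGC) y M : ℕ) : ℝ) ^ 2 else 0))) := by
    rw [← lavg_sum, ← lavg_mul_left]
    refine lavg_congr fun E => ?_
    rw [lavg_mul_left, lavg_sum]
  rw [step2]
  refine (mul_le_mul_of_nonneg_left (sum_lit_le κ n r M l hn) (by positivity)).trans (le_of_eq ?_)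
  field_simp
  ring

end Crest.Agent.RS
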