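import Mathlib
import Crest.Agent.RS.Defs
import Crest.Agent.RS.Mix
import Crest.Agent.RS.RestrPath
import Crest.Agent.RS.ClauseLaw

/-! Chunk R153-RESTR: assembly of the variable removal bound `V ≤ Σ Bin ... Σ U`. -/

set_option autoImplicit false

namespace Crest.Agent.RS

open Finset Crest.ProbabilityR.RandomSAT

/-- monotonicity of the count in the stream -/
theorem cntCl_take_le {n : ℕ} (l : ℕ) (E A : List (GC n)) (D : GC n) {m M : ℕ} (h : m + 1 ≤ M) :
    cntCl l E (A.take m) D (m + 1) ≤ cntCl l E A D M := by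
  classical
  unfold cntCl
  apply Finset.card_le_card
  intro k hk
  rw [Finset.mem_filter, Finset.mem_range] at hk ⊢
  obtain ⟨hk1, hk2, hk3⟩ := hk
  have h1 : (A.take m).take k = A.take k := by
    rw [List.take_take, min_eq_left (by omega)]
  rw [h1] at hk2 hk3
  exact ⟨by omega, hk2, hk3⟩

/-- the pathwise bound squared -/
theorem restr_sq {n : ℕ} (l : ℕ) (E : List (GC n)) (F : List (GC (n + 1))) (M : ℕ)
    (hF : F.length = M) :
    ((cntLit l (E.map up) F (0, true) M : ℕ) : ℝ) ^ 2 ≤
      (1 + ((rights (F.map split)).length : ℝ)) ^ 2 * ((rights (F.map split)).length : ℝ) *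
        ∑ j ∈ range (rights (F.map split)).length,
          ((cntCl l (E ++ (rights (F.map split)).take j) (lefts (F.map split))
            ((rights (F.map split)).getD j []) ((lefts (F.map split)).length + 1) : ℕ) : ℝ) ^ 2 := by
  have h1 := restr_path l E F M hF
  set R := rights (F.map split) with hR
  set A := lefts (F.map split) with hA
  have h2 : ((cntLit l (E.map up) F (0, true) M : ℕ) : ℝ) ≤
      (1 + (R.length : ℝ)) * ∑ j ∈ range R.length,
        ((cntCl l (E ++ R.take j) A (R.getD j []) (A.length + 1) : ℕ) : ℝ) := by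
    exact_mod_cast h1
  have h3 : (∑ j ∈ range R.length,
        ((cntCl l (E ++ R.take j) A (R.getD j []) (A.length + 1) : ℕ) : ℝ)) ^ 2 ≤
      (R.length : ℝ) * ∑ j ∈ range R.length,
        ((cntCl l (E ++ R.take j) A (R.getD j []) (A.length + 1) : ℕ) : ℝ) ^ 2 := by
    have := sq_sum_le_card_mul_sum_sq (s := range R.length)
      (f := fun j => ((cntCl l (E ++ R.take j) A (R.getD j []) (A.length + 1) : ℕ) : ℝ))
    simpa using this
  calc ((cntLit l (E.map up) F (0, true) M : ℕ) : ℝ) ^ 2
      ≤ ((1 + (R.length : ℝ)) * ∑ j ∈ range R.length,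
        ((cntCl l (E ++ R.take j) A (R.getD j []) (A.length + 1) : ℕ) : ℝ)) ^ 2 := by
        apply pow_le_pow_left₀ (Nat.cast_nonneg _) h2
    _ = (1 + (R.length : ℝ)) ^ 2 * (∑ j ∈ range R.length,
        ((cntCl l (E ++ R.take j) A (R.getD j []) (A.length + 1) : ℕ) : ℝ)) ^ 2 := by
        rw [mul_pow]
    _ ≤ (1 + (R.length : ℝ)) ^ 2 * ((R.length : ℝ) * ∑ j ∈ range R.length,
        ((cntCl l (E ++ R.take j) A (R.getD j []) (A.length + 1) : ℕ) : ℝ) ^ 2) := by
        apply mul_le_mul_of_nonneg_left h3 (sq_nonneg _)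
    _ = _ := by ring

/-- for a fixed `j`: the law of the right clauses before `j` and the clause `j`, the others being
averaged out; the left stream is extended to length `M`. -/
theorem restr_term (κ n i M l : ℕ) (h : κ + 1 ≤ n) {ν j : ℕ} (hν : ν ≤ M) (hj : j < ν) :
    lavg (Clause κ n) i (fun E => lavg (Clause (κ + 1) n) (M - ν) (fun A =>
      lavg (Clause κ n) ν (fun B =>
        ((cntCl l (E.map toGC ++ (B.map toGC).take j) (A.map toGC) ((B.map toGC).getD j [])
          (M - ν + 1) : ℕ) : ℝ) ^ 2))) ≤ Uq κ n (i + j) M l := by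
  haveI : Nonempty (Clause κ n) := nonempty_clause (by omega)
  haveI : Nonempty (Clause (κ + 1) n) := nonempty_clause h
  -- rewrite the `B` average
  have hB : ∀ (E : List (Clause κ n)) (A : List (Clause (κ + 1) n)),
      lavg (Clause κ n) ν (fun B =>
        ((cntCl l (E.map toGC ++ (B.map toGC).take j) (A.map toGC) ((B.map toGC).getD j [])
          (M - ν + 1) : ℕ) : ℝ) ^ 2) =
      lavg (Clause κ n) j (fun B => avg (fun D : Clause κ n =>
        ((cntCl l (E.map toGC ++ B.map toGC) (A.map toGC) (toGC D) (M - ν + 1) : ℕ) : ℝ) ^ 2)) := by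
    intro E A
    obtain ⟨s, rfl⟩ : ∃ s, ν = j + (s + 1) := ⟨ν - j - 1, by omega⟩
    rw [lavg_append]
    refine lavg_congr_length fun B hBl => ?_
    rw [lavg_succ]
    refine avg_congr fun D => ?_
    rw [lavg_congr (h := fun _ => ((cntCl l (E.map toGC ++ B.map toGC) (A.map toGC) (toGC D)
      (M - (j + (s + 1)) + 1) : ℕ) : ℝ) ^ 2), lavg_const]
    intro L
    have hl : (B.map (toGC (k := κ) (n := n))).length = j := by simp [hBl]
    have h1 : ((B ++ D :: L).map (toGC (k := κ) (n := n))).take j = B.map toGC := by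
      rw [List.map_append, List.take_left' hl]
    have h2 : ((B ++ D :: L).map (toGC (k := κ) (n := n))).getD j [] = toGC D := by
      rw [List.map_append, List.map_cons, List.getD_append_right _ _ _ _ (by omega), hl]
      simp
    rw [h1, h2]
  rw [lavg_congr (fun E => lavg_congr (fun A => hB E A))]
  -- extend `A`
  have hA : ∀ (E : List (Clause κ n)),
      lavg (Clause (κ + 1) n) (M - ν) (fun A => lavg (Clause κ n) j (fun B =>
        avg (fun D : Clause κ n =>
        ((cntCl l (E.map toGC ++ B.map toGC) (A.map toGC) (toGC D) (M - ν + 1) : ℕ) : ℝ) ^ 2))) ≤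
      lavg (Clause κ n) j (fun B => avg (fun D : Clause κ n =>
        lavg (Clause (κ + 1) n) M (fun A =>
        ((cntCl l ((E ++ B).map toGC) (A.map toGC) (toGC D) M : ℕ) : ℝ) ^ 2))) := by
    intro E
    have h1 := lavg_take (α := Clause (κ + 1) n) (m := M - ν) (M := M) (by omega)
      (fun A => lavg (Clause κ n) j (fun B => avg (fun D : Clause κ n =>
        ((cntCl l (E.map toGC ++ B.map toGC) (A.map toGC) (toGC D) (M - ν + 1) : ℕ) : ℝ) ^ 2)))
    rw [← h1]
    have h2 : lavg (Clause κ n) j (fun B => avg (fun D : Clause κ n =>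
        lavg (Clause (κ + 1) n) M (fun A =>
        ((cntCl l ((E ++ B).map toGC) (A.map toGC) (toGC D) M : ℕ) : ℝ) ^ 2))) =
      lavg (Clause (κ + 1) n) M (fun A => lavg (Clause κ n) j (fun B => avg (fun D : Clause κ n =>
        ((cntCl l ((E ++ B).map toGC) (A.map toGC) (toGC D) M : ℕ) : ℝ) ^ 2))) := by
      rw [lavg_comm]
      refine lavg_congr fun B => ?_
      rw [lavg_avg_comm]
    rw [h2]
    refine lavg_mono fun A => lavg_mono fun B => avg_mono fun D => ?_
    have h3 := cntCl_take_le l (E.map toGC ++ B.map toGC) (A.map toGC) (toGC D)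
      (m := M - ν) (M := M) (by omega)
    rw [List.map_take, List.map_append]
    exact pow_le_pow_left₀ (Nat.cast_nonneg _) (by exact_mod_cast h3) 2
  refine (lavg_mono fun E => hA E).trans_eq ?_
  unfold Uq
  rw [lavg_append]

/-- Variable removal.
Proof: fix `E`. By `restr_path` (with `F.map toGC`, `List.map_map`) and Cauchy-Schwarz
(`sq_sum_le_card_mul_sum_sq`), for `|F| = M`:
`cntLit^2 ≤ G (lefts ..) (rights ..)`, `G A B = (1+|B|)^2 |B| Σ_{j<|B|} (cntCl l (E ++ B.take j) A (B.getD j []) (|A|+1))^2`.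
Apply `lavg_mix` with `φ = split ∘ toGC`, `fa = toGC`, `fb = toGC`, `q = (κ+1)/(n+1)`, `H = avg_split`.
For each `ν` (`ν ≥ 1`, otherwise the term is `0`) and `j < ν`:
`lavg E (lavg A_(M-ν) (lavg B_ν (cntCl l (E ++ B.take j) A (B.getD j []) (M-ν+1))^2))`: the list `B` of
length `ν` is `B1 ++ D :: B2` with `|B1| = j` (`lavg_append`, `lavg_succ`), the function does not
depend on `B2` (`lavg_const`); `E ++ B1` has length `i + j` (`lavg_append`); extend `A` to length `M`
(`lavg_take` with `m = M - ν`): `cntCl .. (A.take (M-ν)) .. (M-ν+1) = cntCl .. A .. (M-ν+1) ≤ cntCl .. A .. M`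
since for `m ≤ M-ν` `(A.take (M-ν)).take m = A.take m` and `M-ν+1 ≤ M`; swap with `lavg_comm`,
`lavg_avg_comm`. -/
theorem Vq_le (κ n i M l : ℕ) (h : κ + 1 ≤ n) :
    Vq κ n i M l ≤ ∑ ν ∈ range (M + 1), (M.choose ν : ℝ) * (((κ : ℝ) + 1) / (n + 1)) ^ ν *
      (1 - ((κ : ℝ) + 1) / (n + 1)) ^ (M - ν) *
        ((1 + (ν : ℝ)) ^ 2 * ν * ∑ j ∈ range ν, Uq κ n (i + j) M l) := by
  have hq1 : 0 ≤ ((κ : ℝ) + 1) / (n + 1) := by positivity
  have hq2 : 0 ≤ 1 - ((κ : ℝ) + 1) / (n + 1) := by
    have : ((κ : ℝ) + 1) / (n + 1) ≤ 1 := by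
      rw [div_le_one (by positivity)]
      have : ((κ + 1 : ℕ) : ℝ) ≤ (n : ℝ) := by exact_mod_cast h
      push_cast at this
      linarith
    linarith
  -- the integrand
  let G : List (Clause κ n) → List (GC n) → List (GC n) → ℝ := fun E A B =>
    (1 + (B.length : ℝ)) ^ 2 * (B.length : ℝ) * ∑ j ∈ range B.length,
      ((cntCl l (E.map toGC ++ B.take j) A (B.getD j []) (A.length + 1) : ℕ) : ℝ) ^ 2
  have hstep : ∀ E : List (Clause κ n),
      lavg (Clause (κ + 1) (n + 1)) M (fun F =>
        ((cntLit l (E.map (fun c => up (toGC c))) (F.map toGC) (0, true) M : ℕ) : ℝ) ^ 2) ≤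
      ∑ ν ∈ range (M + 1), (M.choose ν : ℝ) * (((κ : ℝ) + 1) / (n + 1)) ^ ν *
        (1 - ((κ : ℝ) + 1) / (n + 1)) ^ (M - ν) *
        lavg (Clause (κ + 1) n) (M - ν) (fun A => lavg (Clause κ n) ν (fun B =>
          G E (A.map toGC) (B.map toGC))) := by
    intro E
    rw [← lavg_mix (fun c : Clause (κ + 1) (n + 1) => split (toGC c)) toGC toGC
      (((κ : ℝ) + 1) / (n + 1)) (fun g => avg_split h g) M (G E)]
    refine lavg_mono_length fun F hF => ?_
    have h1 := restr_sq l (E.map toGC) (F.map toGC) M (by simp [hF])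
    rw [List.map_map, List.map_map] at h1
    exact h1
  unfold Vq
  refine (lavg_mono hstep).trans ?_
  rw [lavg_sum]
  refine Finset.sum_le_sum fun ν hν => ?_
  rw [lavg_mul_left]
  refine mul_le_mul_of_nonneg_left ?_ (by positivity)
  have hν' : ν ≤ M := by
    have := Finset.mem_range.1 hν
    omega
  have hG : ∀ E : List (Clause κ n),
      lavg (Clause (κ + 1) n) (M - ν) (fun A => lavg (Clause κ n) ν (fun B =>
          G E (A.map toGC) (B.map toGC))) =
      (1 + (ν : ℝ)) ^ 2 * ν * ∑ j ∈ range ν,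
        lavg (Clause (κ + 1) n) (M - ν) (fun A => lavg (Clause κ n) ν (fun B =>
          ((cntCl l (E.map toGC ++ (B.map toGC).take j) (A.map toGC) ((B.map toGC).getD j [])
          (M - ν + 1) : ℕ) : ℝ) ^ 2)) := by
    intro E
    rw [← lavg_sum, ← lavg_mul_left]
    refine lavg_congr_length fun A hA => ?_
    rw [← lavg_sum, ← lavg_mul_left]
    refine lavg_congr_length fun B hB => ?_
    simp only [G, List.length_map, hA, hB]
  rw [lavg_congr hG, lavg_mul_left, lavg_sum]
  refine mul_le_mul_of_nonneg_left ?_ (by positivity)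
  refine Finset.sum_le_sum fun j hj => ?_
  exact restr_term κ n i M l h hν' (Finset.mem_range.1 hj)

end Crest.Agent.RS
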