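import Mathlib
import Crest.Agent.RS.Defs
import Crest.Agent.RS.Restr
import Crest.Agent.RS.Key

/-! Chunk R153-STEP: one step of the recursion. -/

set_option autoImplicit false

namespace Crest.Agent.RS

open Finset Crest.ProbabilityR.RandomSAT

private theorem avg_le_of_nonneg {α : Type*} [Fintype α] {f : α → ℝ} {c : ℝ} (hc : 0 ≤ c)
    (h : ∀ a, f a ≤ c) : avg f ≤ c := by
  rcases isEmpty_or_nonempty α with hα | hα
  · simp [avg, hc]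
  · exact avg_le_const h

private theorem lavg_le_of_nonneg {α : Type*} [Fintype α] {M : ℕ} {g : List α → ℝ} {c : ℝ}
    (hc : 0 ≤ c) (h : ∀ L, g L ≤ c) : lavg α M g ≤ c := by
  induction M generalizing g with
  | zero => exact h []
  | succ M ih =>
    rw [lavg_succ]
    exact avg_le_of_nonneg hc fun a => ih fun L => h _

/-- trivial bound: the count is at most `M`. -/
theorem Vq_le_sq (κ n i M l : ℕ) : Vq κ n i M l ≤ (M : ℝ) ^ 2 := by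
  have hM : (0 : ℝ) ≤ (M : ℝ) ^ 2 := by positivity
  unfold Vq
  refine lavg_le_of_nonneg hM fun E => lavg_le_of_nonneg hM fun F => ?_
  have h1 : ((cntLit l (E.map (fun c => up (toGC c))) (F.map toGC) (0, true) M : ℕ) : ℝ) ≤ M := by
    exact_mod_cast cntLit_le _ _ _ _
  gcongr

private theorem poly_le_two_pow (ν : ℕ) : (1 + ν) ^ 2 * ν ≤ 7 * 2 ^ ν := by
  rcases Nat.lt_or_ge ν 4 with h | h
  · interval_cases ν <;> norm_num
  · induction ν, h using Nat.le_induction with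
    | base => norm_num
    | succ m hm ih =>
      rw [pow_succ 2 m]
      have h1 : (1 + (m + 1)) ^ 2 * (m + 1) ≤ 2 * ((1 + m) ^ 2 * m) := by
        nlinarith [mul_self_nonneg m, Nat.mul_le_mul hm hm, Nat.mul_le_mul hm (Nat.mul_le_mul hm hm)]
      omega

private theorem sq_le_two_pow (r : ℕ) : r ^ 2 ≤ 2 * 2 ^ r := by
  rcases Nat.lt_or_ge r 4 with h | h
  · interval_cases r <;> norm_num
  · induction r, h using Nat.le_induction with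
    | base => norm_num
    | succ m hm ih =>
      rw [pow_succ 2 m]
      have h1 : (m + 1) ^ 2 ≤ 2 * m ^ 2 := by nlinarith
      omega

/-- One step: if `V_(n, i) ≤ 2^i b` for all `i`, then `V_(n+1, i) ≤ 2^i (b/2 + K)`.
Proof: `Vq_le` at `n+1`, `Uq_le` at `n`:
`Uq κ (n+1) r ≤ 4δ 2^r b + 4/p^2 + (rκM/(n+1))^2 ≤ 2^r (4 δ b + K1)`, `K1 = 4/p^2 + 8 κ² C0²`
(as `M/(n+1) ≤ 2 C0`, `r^2 ≤ 2·2^r`). `Σ_{j<ν} 2^(i+j) ≤ 2^i 2^ν`; `(1+ν)^2 ν ≤ 7·2^ν`;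
`Σ_ν Bin(ν) 4^ν = (1+3q)^M ≤ exp(3qM) ≤ exp(6 (κ+1) C0)`, `q = (κ+1)/(n+2)`. With `A = 7 exp(6(κ+1)C0)`,
`δ = 1/(8A)`: `V_(n+1,i) ≤ 2^i (b/2 + A K1)`. -/
theorem step (κ : ℕ) (hκ : 2 ≤ κ) (C0 : ℝ) (hC0 : 0 ≤ C0) :
    ∃ (K : ℝ) (N0 : ℕ), 0 ≤ K ∧ κ + 1 ≤ N0 ∧ ∀ n M l : ℕ, N0 ≤ n → (M : ℝ) ≤ 2 * C0 * (n + 1) →
      ∀ b : ℝ, 0 ≤ b → (∀ i, Vq κ n i M l ≤ 2 ^ i * b) → ∀ i, Vq κ (n + 1) i M l ≤ 2 ^ i * (b / 2 + K) := by
  set A : ℝ := 7 * Real.exp (6 * ((κ : ℝ) + 1) * C0) with hA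
  have hApos : 7 ≤ A := by
    have h0 : (0 : ℝ) ≤ 6 * ((κ : ℝ) + 1) * C0 := by positivity
    have : (1 : ℝ) ≤ Real.exp (6 * ((κ : ℝ) + 1) * C0) := Real.one_le_exp h0
    rw [hA]; linarith
  have hA0 : 0 < A := by linarith
  set δ : ℝ := 1 / (8 * A) with hδdef
  have hδ : 0 < δ := by positivity
  have hδ1 : δ ≤ 1 := by
    rw [hδdef, div_le_one (by positivity)]
    linarith
  set P : ℝ := 4 * (1 / ((δ / 2) ^ (κ + 1)) ^ 2) with hP
  have hP0 : 0 ≤ P := by positivity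
  set K1 : ℝ := P + 8 * (κ : ℝ) ^ 2 * C0 ^ 2 with hK1
  have hK10 : 0 ≤ K1 := by positivity
  refine ⟨A * K1, max (κ + 1) ⌈((κ : ℝ) + 1) / δ⌉₊, by positivity, le_max_left _ _, ?_⟩
  intro n M l hn hM b hb hV i
  have hn1 : κ + 1 ≤ n := (le_max_left _ _).trans hn
  have hn2 : ((κ : ℝ) + 1) ≤ ((n : ℝ) + 1) * δ := by
    have h1 : ((κ : ℝ) + 1) / δ ≤ n := (Nat.le_ceil _).trans (by exact_mod_cast (le_max_right _ _).trans hn)
    rw [div_le_iff₀ hδ] at h1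
    nlinarith
  have hnpos : (0 : ℝ) < (n : ℝ) + 1 := by positivity
  -- bound on U
  have hU : ∀ r, Uq κ (n + 1) r M l ≤ 2 ^ r * (4 * δ * b + K1) := by
    intro r
    have h1 := Uq_le κ n r M l δ hκ (by omega) hδ hδ1 hn2
    have h2 : 4 * δ * Vq κ n r M l ≤ 4 * δ * (2 ^ r * b) :=
      mul_le_mul_of_nonneg_left (hV r) (by positivity)
    have h3 : ((r : ℝ) * κ * M / (n + 1)) ^ 2 ≤ 2 ^ r * (8 * (κ : ℝ) ^ 2 * C0 ^ 2) := by
      have h4 : (M : ℝ) / (n + 1) ≤ 2 * C0 := by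
        rw [div_le_iff₀ hnpos]; exact hM
      have h5 : (r : ℝ) * κ * M / (n + 1) ≤ r * κ * (2 * C0) := by
        rw [mul_div_assoc]
        exact mul_le_mul_of_nonneg_left h4 (by positivity)
      have h6 : (0 : ℝ) ≤ (r : ℝ) * κ * M / (n + 1) := by positivity
      have h7 : ((r : ℝ) * κ * M / (n + 1)) ^ 2 ≤ (r * κ * (2 * C0)) ^ 2 := by gcongr
      have h8 : (r : ℝ) ^ 2 ≤ 2 * 2 ^ r := by exact_mod_cast sq_le_two_pow r
      calc ((r : ℝ) * κ * M / (n + 1)) ^ 2 ≤ (r * κ * (2 * C0)) ^ 2 := h7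
        _ = (r : ℝ) ^ 2 * (4 * κ ^ 2 * C0 ^ 2) := by ring
        _ ≤ (2 * 2 ^ r) * (4 * κ ^ 2 * C0 ^ 2) := by gcongr
        _ = 2 ^ r * (8 * (κ : ℝ) ^ 2 * C0 ^ 2) := by ring
    have h9 : P ≤ 2 ^ r * P := le_mul_of_one_le_left hP0 (one_le_pow₀ (by norm_num))
    calc Uq κ (n + 1) r M l ≤ 4 * δ * Vq κ n r M l + P + ((r : ℝ) * κ * M / (n + 1)) ^ 2 := h1
      _ ≤ 4 * δ * (2 ^ r * b) + 2 ^ r * P + 2 ^ r * (8 * (κ : ℝ) ^ 2 * C0 ^ 2) := by linarith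
      _ = 2 ^ r * (4 * δ * b + K1) := by rw [hK1]; ring
  set B : ℝ := 4 * δ * b + K1 with hB
  have hB0 : 0 ≤ B := by positivity
  -- q
  set q : ℝ := ((κ : ℝ) + 1) / (((n + 1 : ℕ) : ℝ) + 1) with hq
  have hq0 : 0 ≤ q := by positivity
  have hq1 : q ≤ 1 := by
    rw [hq, div_le_one (by positivity)]
    have : ((κ : ℝ) + 1) ≤ n := by exact_mod_cast hn1
    push_cast
    linarith
  have hmain := Vq_le κ (n + 1) i M l (by omega)
  rw [← hq] at hmain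
  have hterm : ∀ ν ∈ range (M + 1), (M.choose ν : ℝ) * q ^ ν * (1 - q) ^ (M - ν) *
      ((1 + (ν : ℝ)) ^ 2 * ν * ∑ j ∈ range ν, Uq κ (n + 1) (i + j) M l) ≤
      (2 ^ i * B * 7) * ((4 * q) ^ ν * (1 - q) ^ (M - ν) * (M.choose ν : ℝ)) := by
    intro ν _
    have h1q : 0 ≤ 1 - q := by linarith
    have hsum : ∑ j ∈ range ν, Uq κ (n + 1) (i + j) M l ≤ 2 ^ i * 2 ^ ν * B := by
      calc ∑ j ∈ range ν, Uq κ (n + 1) (i + j) M l ≤ ∑ j ∈ range ν, 2 ^ (i + j) * B :=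
            Finset.sum_le_sum fun j _ => hU (i + j)
        _ = (∑ j ∈ range ν, (2 : ℝ) ^ j) * (2 ^ i * B) := by
            rw [Finset.sum_mul]
            refine Finset.sum_congr rfl fun j _ => ?_
            rw [pow_add]; ring
        _ ≤ 2 ^ ν * (2 ^ i * B) := by
            have hg : ∑ j ∈ range ν, (2 : ℝ) ^ j ≤ 2 ^ ν := by
              rw [geom_sum_eq (by norm_num)]
              have : (0 : ℝ) ≤ 2 ^ ν := by positivity
              norm_num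
            gcongr
        _ = 2 ^ i * 2 ^ ν * B := by ring
    have hpoly : (1 + (ν : ℝ)) ^ 2 * ν ≤ 7 * 2 ^ ν := by exact_mod_cast poly_le_two_pow ν
    have hs0 : 0 ≤ 2 ^ i * 2 ^ ν * B := by positivity
    have h3 : (1 + (ν : ℝ)) ^ 2 * ν * ∑ j ∈ range ν, Uq κ (n + 1) (i + j) M l ≤
        (7 * 2 ^ ν) * (2 ^ i * 2 ^ ν * B) := by
      calc (1 + (ν : ℝ)) ^ 2 * ν * ∑ j ∈ range ν, Uq κ (n + 1) (i + j) M l
          ≤ (1 + (ν : ℝ)) ^ 2 * ν * (2 ^ i * 2 ^ ν * B) := by gcongr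
        _ ≤ (7 * 2 ^ ν) * (2 ^ i * 2 ^ ν * B) := by gcongr
    calc (M.choose ν : ℝ) * q ^ ν * (1 - q) ^ (M - ν) *
        ((1 + (ν : ℝ)) ^ 2 * ν * ∑ j ∈ range ν, Uq κ (n + 1) (i + j) M l)
        ≤ (M.choose ν : ℝ) * q ^ ν * (1 - q) ^ (M - ν) * ((7 * 2 ^ ν) * (2 ^ i * 2 ^ ν * B)) := by
          gcongr
      _ = (2 ^ i * B * 7) * ((4 * q) ^ ν * (1 - q) ^ (M - ν) * (M.choose ν : ℝ)) := by
          rw [mul_pow, show (4 : ℝ) = 2 * 2 by norm_num, mul_pow]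
          ring
  have hbin : ∑ ν ∈ range (M + 1), ((4 * q) ^ ν * (1 - q) ^ (M - ν) * (M.choose ν : ℝ)) =
      (1 + 3 * q) ^ M := by
    rw [← add_pow]
    ring
  have hexp : (1 + 3 * q) ^ M ≤ Real.exp (6 * ((κ : ℝ) + 1) * C0) := by
    have h1 : 1 + 3 * q ≤ Real.exp (3 * q) := by
      have := Real.add_one_le_exp (3 * q)
      linarith
    have h2 : (1 + 3 * q) ^ M ≤ Real.exp (3 * q) ^ M := by gcongr
    refine h2.trans ?_
    rw [← Real.exp_nat_mul]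
    refine Real.exp_le_exp.2 ?_
    have h3 : (M : ℝ) * q ≤ 2 * C0 * (κ + 1) := by
      rw [hq, mul_div_assoc', div_le_iff₀ (by positivity)]
      push_cast
      have h4 : (M : ℝ) * (κ + 1) ≤ 2 * C0 * (n + 1) * (κ + 1) := by gcongr
      have h5 : 0 ≤ 2 * C0 * ((κ : ℝ) + 1) := by positivity
      nlinarith
    nlinarith
  calc Vq κ (n + 1) i M l ≤ _ := hmain
    _ ≤ ∑ ν ∈ range (M + 1), (2 ^ i * B * 7) * ((4 * q) ^ ν * (1 - q) ^ (M - ν) * (M.choose ν : ℝ)) :=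
        Finset.sum_le_sum hterm
    _ = (2 ^ i * B * 7) * (1 + 3 * q) ^ M := by rw [← Finset.mul_sum, hbin]
    _ ≤ (2 ^ i * B * 7) * Real.exp (6 * ((κ : ℝ) + 1) * C0) := by gcongr
    _ = 2 ^ i * (4 * δ * A * b + A * K1) := by rw [hB, hA]; ring
    _ = 2 ^ i * (b / 2 + A * K1) := by
        have : 4 * δ * A = 1 / 2 := by
          rw [hδdef]; field_simp; norm_num
        rw [this]; ring

end Crest.Agent.RS
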