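import Mathlib
import Crest.Agent.RS.Defs
import Crest.Agent.RS.Step

/-! Chunk R153-CORE: the recursion. -/

set_option autoImplicit false

namespace Crest.Agent.RS

open Finset Crest.ProbabilityR.RandomSAT

/-- The core theorem: uniformly in the level `l`, for `M ≤ C0 (n+1)` the second moment `V_(n,0)(M)` is
bounded. Proof: let `n ≥ 2 N0 + 2`, `n0 = n/2 ≥ N0`, so `M ≤ C0 (n+1) ≤ 2 C0 (n0 + 1)`; iterate `step` from
`n0` with `b = M^2`: `V_(n,0) ≤ 2 K + 2^(-(n-n0)) M^2 ≤ 2K + C0^2 (n+1)^2 2^(-n/2) ≤ C`. For smaller `n` use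
`Vq_le_sq`. -/
theorem core (κ : ℕ) (hκ : 2 ≤ κ) (C0 : ℝ) :
    ∃ C : ℝ, ∀ n M l : ℕ, (M : ℝ) ≤ C0 * (n + 1) → Vq κ n 0 M l ≤ C := by
  rcases lt_or_ge C0 0 with hC0 | hC0
  · refine ⟨0, fun n M l hM => ?_⟩
    exfalso
    have h1 : (0 : ℝ) ≤ (M : ℝ) := Nat.cast_nonneg _
    have h2 : C0 * ((n : ℝ) + 1) < 0 := mul_neg_of_neg_of_pos hC0 (by positivity)
    linarith
  obtain ⟨K, N0, hK, _, hstep⟩ := step κ hκ C0 hC0
  have key : ∀ (n0 M l : ℕ), N0 ≤ n0 → (M : ℝ) ≤ 2 * C0 * (n0 + 1) → ∀ t i : ℕ,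
      Vq κ (n0 + t) i M l ≤ 2 ^ i * ((M : ℝ) ^ 2 / 2 ^ t + 2 * K) := by
    intro n0 M l hn0 hM t
    induction t with
    | zero =>
      intro i
      have h1 := Vq_le_sq κ n0 i M l
      have h2 : (1 : ℝ) ≤ 2 ^ i := one_le_pow₀ (by norm_num)
      have h3 : (0 : ℝ) ≤ (M : ℝ) ^ 2 / 2 ^ 0 + 2 * K := by positivity
      calc Vq κ (n0 + 0) i M l ≤ (M : ℝ) ^ 2 := h1
        _ ≤ 1 * ((M : ℝ) ^ 2 / 2 ^ 0 + 2 * K) := by rw [pow_zero]; linarith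
        _ ≤ 2 ^ i * ((M : ℝ) ^ 2 / 2 ^ 0 + 2 * K) := mul_le_mul_of_nonneg_right h2 h3
    | succ t ih =>
      intro i
      have h1 : (M : ℝ) ≤ 2 * C0 * (((n0 + t : ℕ) : ℝ) + 1) := by
        refine hM.trans ?_
        have : (n0 : ℝ) + 1 ≤ ((n0 + t : ℕ) : ℝ) + 1 := by push_cast; linarith [Nat.cast_nonneg (α := ℝ) t]
        exact mul_le_mul_of_nonneg_left this (by positivity)
      have h2 := hstep (n0 + t) M l (by omega) h1 ((M : ℝ) ^ 2 / 2 ^ t + 2 * K) (by positivity) ih i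
      have h3 : ((M : ℝ) ^ 2 / 2 ^ t + 2 * K) / 2 + K = (M : ℝ) ^ 2 / 2 ^ (t + 1) + 2 * K := by
        rw [pow_succ]; field_simp; ring
      rw [h3] at h2
      exact h2
  have hpow : ∀ t : ℕ, (2 * (t : ℝ) + 1) ^ 2 ≤ 7 * 2 ^ t := by
    intro t
    rcases Nat.lt_or_ge t 2 with ht | ht
    · interval_cases t <;> norm_num
    · induction t, ht using Nat.le_induction with
      | base => norm_num
      | succ t ht ih =>
        have h2 : (2 : ℝ) ≤ (t : ℝ) := by exact_mod_cast ht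
        rw [pow_succ (2 : ℝ) t]
        push_cast
        nlinarith
  refine ⟨2 * K + 7 * C0 ^ 2 + (C0 * (2 * N0)) ^ 2, fun n M l hM => ?_⟩
  have hM0 : (0 : ℝ) ≤ (M : ℝ) := Nat.cast_nonneg _
  rcases Nat.lt_or_ge n (2 * N0) with hn | hn
  · have h1 := Vq_le_sq κ n 0 M l
    have h2 : (n : ℝ) + 1 ≤ 2 * N0 := by exact_mod_cast hn
    have h3 : (M : ℝ) ≤ C0 * (2 * N0) := hM.trans (mul_le_mul_of_nonneg_left h2 hC0)
    have h4 : (M : ℝ) ^ 2 ≤ (C0 * (2 * N0)) ^ 2 := pow_le_pow_left₀ hM0 h3 2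
    have h5 : 0 ≤ C0 ^ 2 := sq_nonneg _
    linarith
  · set n0 := n / 2 with hn0
    set t := n - n0 with ht
    have e1 : n0 + t = n := by omega
    have e2 : N0 ≤ n0 := by omega
    have e3 : n + 1 ≤ 2 * (n0 + 1) := by omega
    have e4 : n ≤ 2 * t := by omega
    have e3' : (n : ℝ) + 1 ≤ 2 * ((n0 : ℝ) + 1) := by exact_mod_cast e3
    have e4' : (n : ℝ) ≤ 2 * (t : ℝ) := by exact_mod_cast e4
    have h1 : (M : ℝ) ≤ 2 * C0 * (n0 + 1) := by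
      refine hM.trans ?_
      have := mul_le_mul_of_nonneg_left e3' hC0
      linarith
    have h2 := key n0 M l e2 h1 t 0
    rw [e1, pow_zero, one_mul] at h2
    have h3 : (M : ℝ) ^ 2 / 2 ^ t ≤ 7 * C0 ^ 2 := by
      rw [div_le_iff₀ (by positivity)]
      have h4 : (M : ℝ) ≤ C0 * (2 * t + 1) :=
        hM.trans (mul_le_mul_of_nonneg_left (by linarith) hC0)
      calc (M : ℝ) ^ 2 ≤ (C0 * (2 * t + 1)) ^ 2 := pow_le_pow_left₀ hM0 h4 2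
        _ = C0 ^ 2 * (2 * (t : ℝ) + 1) ^ 2 := by ring
        _ ≤ C0 ^ 2 * (7 * 2 ^ t) := mul_le_mul_of_nonneg_left (hpow t) (sq_nonneg _)
        _ = 7 * C0 ^ 2 * 2 ^ t := by ring
    have h5 : 0 ≤ (C0 * (2 * (N0 : ℝ))) ^ 2 := sq_nonneg _
    linarith

end Crest.Agent.RS
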