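import Mathlib
import Crest.Agent.RS.Defs
import Crest.Agent.RS.Incr

/-! Chunk R153-TAU: gaps between the hitting times of consecutive levels. -/

set_option autoImplicit false

namespace Crest.Agent.RS

open Finset Crest.ProbabilityR.RandomSAT

theorem tau_exists_positions {α : Type*} (p : α → Bool) (X : List α) :
    ∃ S : Finset ℕ, S.card = X.countP p ∧ ∀ i ∈ S, ∃ h : i < X.length, p X[i] = true := by
  induction X with
  | nil => exact ⟨∅, by simp, by simp⟩
  | cons a X ih =>
    obtain ⟨S, hS, hS2⟩ := ih
    have hinj : Function.Injective Nat.succ := Nat.succ_injective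
    by_cases ha : p a = true
    · refine ⟨insert 0 (S.image Nat.succ), ?_, ?_⟩
      · rw [Finset.card_insert_of_notMem (by simp), Finset.card_image_of_injective _ hinj, hS,
          List.countP_cons_of_pos ha]
      · intro i hi
        rw [Finset.mem_insert, Finset.mem_image] at hi
        rcases hi with rfl | ⟨j, hj, rfl⟩
        · exact ⟨by simp, by simpa using ha⟩
        · obtain ⟨h1, h2⟩ := hS2 j hj
          exact ⟨by simpa using h1, by simpa using h2⟩
    · refine ⟨S.image Nat.succ, ?_, ?_⟩
      · rw [Finset.card_image_of_injective _ hinj, hS, List.countP_cons_of_neg ha]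
      · intro i hi
        rw [Finset.mem_image] at hi
        obtain ⟨j, hj, rfl⟩ := hi
        obtain ⟨h1, h2⟩ := hS2 j hj
        exact ⟨by simpa using h1, by simpa using h2⟩

theorem tau_card_filter {P : ℕ → Prop} [DecidablePred P] (hP : ∀ m m', m' ≤ m → P m → P m')
    {M m : ℕ} (hm : m < M) : P m ↔ m < ((Finset.range M).filter P).card := by
  constructor
  · intro h
    have h1 : Finset.range (m + 1) ⊆ (Finset.range M).filter P := by
      intro j hj
      rw [Finset.mem_range] at hj
      rw [Finset.mem_filter, Finset.mem_range]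
      exact ⟨by omega, hP m j (by omega) h⟩
    have h2 := Finset.card_le_card h1
    rw [Finset.card_range] at h2
    omega
  · intro h
    by_contra hn
    have h1 : (Finset.range M).filter P ⊆ Finset.range m := by
      intro j hj
      rw [Finset.mem_filter, Finset.mem_range] at hj
      rw [Finset.mem_range]
      by_contra hjm
      exact hn (hP j m (by omega) hj.2)
    have h2 := Finset.card_le_card h1
    rw [Finset.card_range] at h2
    omega

theorem tau_alive_take {k n : ℕ} (l : ℕ) (L : List (Clause k n)) (m m' : ℕ) (h : m' ≤ m)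
    (hA : Alive l ((L.take m).map toGC)) : Alive l ((L.take m').map toGC) :=
  hA.of_sublist ((List.take_sublist_take_left (l := L) h).map _)

theorem tau_alive_mono {n : ℕ} {l l' : ℕ} (h : l ≤ l') {F : List (GC n)} (hA : Alive l F) :
    Alive l' F := by
  obtain ⟨σ, hσ⟩ := hA
  exact ⟨σ, hσ.trans h⟩

/-- Deterministic: let `τ = hit (l+1) - hit l > 0` (truncated at `M`). At the last time
`m* = hit (l+1) - 1 < M` at which the level is `≤ l+1` the minimum number of violated clauses is exactly
`l+1`; take an optimal `σ`: for each of the `l+1` violated positions `i < m*`, removing the clause `i` gives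
level `≤ l` at time `m*`, hence at all times `m ≤ m*`; so `hitE l i ≥ hit (l+1)`. -/
theorem tau_sq_le {k n : ℕ} (l M : ℕ) (L : List (Clause k n)) (hL : L.length = M) :
    ((l : ℝ) + 1) * (((hit (l + 1) L M : ℕ) : ℝ) - ((hit l L M : ℕ) : ℝ)) ^ 2 ≤
      ∑ i ∈ range M, (((hit l L M : ℕ) : ℝ) - ((hitE l i (L.eraseIdx i) M : ℕ) : ℝ)) ^ 2 := by
  classical
  have hmono : hit l L M ≤ hit (l + 1) L M := by
    unfold hit
    apply Finset.card_le_card
    intro m hm
    rw [Finset.mem_filter] at hm ⊢
    exact ⟨hm.1, tau_alive_mono (Nat.le_succ l) hm.2⟩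
  rcases hmono.eq_or_lt with heq | hlt
  · rw [heq, sub_self]
    simp only [ne_eq, OfNat.ofNat_ne_zero, not_false_eq_true, zero_pow, mul_zero]
    exact Finset.sum_nonneg fun i _ => sq_nonneg _
  set H := hit (l + 1) L M with hH
  set h := hit l L M with hh
  have hHM : H ≤ M := by
    rw [hH]; unfold hit
    exact (Finset.card_filter_le _ _).trans (by simp)
  obtain ⟨ms, hms⟩ : ∃ ms, H = ms + 1 := ⟨H - 1, by omega⟩
  have hmsM : ms < M := by omega
  have hA1 : Alive (l + 1) ((L.take ms).map toGC) := by
    have := (tau_card_filter (P := fun m => Alive (l + 1) ((L.take m).map toGC))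
      (fun m m' hmm' => tau_alive_take (l + 1) L m m' hmm') hmsM).2
    apply this
    have e : ((Finset.range M).filter (fun m => Alive (l + 1) ((L.take m).map toGC))).card = H := rfl
    omega
  have hA2 : ¬ Alive l ((L.take ms).map toGC) := by
    intro hA
    have := (tau_card_filter (P := fun m => Alive l ((L.take m).map toGC))
      (fun m m' hmm' => tau_alive_take l L m m' hmm') hmsM).1 hA
    have e : ((Finset.range M).filter (fun m => Alive l ((L.take m).map toGC))).card = h := rfl
    omega
  obtain ⟨σ, hσ⟩ := hA1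
  have hσ2 : viol ((L.take ms).map toGC) σ = l + 1 := by
    refine le_antisymm hσ ?_
    by_contra hlt2
    push Not at hlt2
    exact hA2 ⟨σ, by omega⟩
  obtain ⟨S, hS, hS2⟩ := tau_exists_positions
    ((fun c : GC n => decide (¬ GSat σ c)) ∘ (toGC : Clause k n → GC n)) (L.take ms)
  have hScard : S.card = l + 1 := by
    rw [hS, ← List.countP_map, ← hσ2]
    rfl
  have hSsub : S ⊆ range M := by
    intro i hi
    obtain ⟨h1, _⟩ := hS2 i hi
    rw [List.length_take] at h1
    rw [Finset.mem_range]
    omega
  have hkey : ∀ i ∈ S, H ≤ hitE l i (L.eraseIdx i) M := by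
    intro i hi
    obtain ⟨h1, h2⟩ := hS2 i hi
    have h1' : i < ms := by rw [List.length_take] at h1; omega
    have hperm : ((L.take ms).map toGC).Perm
        (toGC (L.take ms)[i] :: ((L.take ms).eraseIdx i).map toGC) := by
      have := (List.getElem_cons_eraseIdx_perm h1).symm.map toGC
      simpa using this
    have hv : viol (((L.take ms).eraseIdx i).map toGC) σ ≤ l := by
      have e1 := viol_perm hperm σ
      rw [hσ2, viol_cons] at e1
      have hns : ¬ GSat σ (toGC (L.take ms)[i]) := by simpa using h2
      rw [if_neg hns] at e1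
      omega
    have hsub : Finset.range H ⊆ (Finset.range M).filter
        (fun m => Alive l (((L.eraseIdx i).take (if m ≤ i then m else m - 1)).map toGC)) := by
      intro m hm
      rw [Finset.mem_range] at hm
      rw [Finset.mem_filter, Finset.mem_range]
      refine ⟨by omega, σ, ?_⟩
      refine le_trans (viol_sublist ?_ σ) hv
      apply List.Sublist.map
      have e2 : (L.take ms).eraseIdx i = (L.eraseIdx i).take (ms - 1) := by
        have e3 : ms = (ms - 1) + 1 := by omega
        rw [List.eraseIdx_eq_take_drop_succ, List.eraseIdx_eq_take_drop_succ, List.take_take,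
          List.take_append, List.take_take, List.drop_take]
        congr 1
        · congr 1
          omega
        · congr 1
          rw [List.length_take]
          omega
      rw [e2]
      apply List.take_sublist_take_left
      split_ifs <;> omega
    have := Finset.card_le_card hsub
    rw [Finset.card_range] at this
    exact this
  calc ((l : ℝ) + 1) * ((H : ℝ) - (h : ℝ)) ^ 2
      = ∑ i ∈ S, ((H : ℝ) - (h : ℝ)) ^ 2 := by
        rw [Finset.sum_const, hScard, nsmul_eq_mul]; push_cast; ring
    _ ≤ ∑ i ∈ S, ((h : ℝ) - ((hitE l i (L.eraseIdx i) M : ℕ) : ℝ)) ^ 2 := by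
        refine Finset.sum_le_sum fun i hi => ?_
        have h1 : (H : ℝ) ≤ ((hitE l i (L.eraseIdx i) M : ℕ) : ℝ) := by exact_mod_cast hkey i hi
        have h2 : (h : ℝ) ≤ (H : ℝ) := by exact_mod_cast hmono
        nlinarith
    _ ≤ ∑ i ∈ range M, ((h : ℝ) - ((hitE l i (L.eraseIdx i) M : ℕ) : ℝ)) ^ 2 :=
        Finset.sum_le_sum_of_subset_of_nonneg hSsub fun i _ _ => sq_nonneg _

/-- Expected gap between consecutive levels. -/
theorem tau_le {κ n : ℕ} (hn : κ + 1 ≤ n + 1) (l M : ℕ) :
    ((l : ℝ) + 1) * lavg (Clause (κ + 1) (n + 1)) M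
      (fun L => (((hit (l + 1) L M : ℕ) : ℝ) - ((hit l L M : ℕ) : ℝ)) ^ 2) ≤
      (M : ℝ) * Vq κ n 0 M l := by
  rw [← lavg_mul_left]
  refine (lavg_mono_length (fun L hL => tau_sq_le l M L hL)).trans ?_
  rw [lavg_sum]
  calc ∑ i ∈ range M, lavg (Clause (κ + 1) (n + 1)) M
        (fun L => (((hit l L M : ℕ) : ℝ) - ((hitE l i (L.eraseIdx i) M : ℕ) : ℝ)) ^ 2)
      ≤ ∑ i ∈ range M, Vq κ n 0 M l :=
        Finset.sum_le_sum fun i hi => incr_le hn l i M (Finset.mem_range.1 hi)
    _ = (M : ℝ) * Vq κ n 0 M l := by
        rw [Finset.sum_const, Finset.card_range, nsmul_eq_mul]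

end Crest.Agent.RS
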