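import Mathlib
import Crest.Agent.RS.Defs
import Crest.Agent.RS.SatProb

/-! Chunk R153-TAIL: tail bounds. -/

set_option autoImplicit false

namespace Crest.Agent.RS

open Finset Crest.ProbabilityR.RandomSAT

/-- Tail: there are `C0, C1` (depending on `k ≥ 1` only) such that for all `n ≥ k` both series converge and the
tail of the second one from `M ≥ C0 n` on is at most `C1`.
(`2^n (1-2^(-k))^m ≤ (1-2^(-k))^(m/2)` for `m ≥ C0 n`.) -/
theorem tail (k : ℕ) (hk : 1 ≤ k) :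
    ∃ C0 C1 : ℝ, 0 ≤ C0 ∧ ∀ n : ℕ, k ≤ n →
      Summable (fun m : ℕ => satProb k n m) ∧
      Summable (fun m : ℕ => (2 * (m : ℝ) + 1) * satProb k n m) ∧
      ∀ M : ℕ, C0 * n ≤ M → ∑' m : ℕ, (2 * ((m + M : ℕ) : ℝ) + 1) * satProb k n (m + M) ≤ C1 := by
  set ρ : ℝ := 1 - 1 / 2 ^ k with hρ
  have hpow : (1 : ℝ) < 2 ^ k := one_lt_pow₀ (by norm_num) (by omega)
  have hρ0 : 0 < ρ := by
    rw [hρ, sub_pos, div_lt_one (by positivity)]
    exact hpow
  have hρ1 : ρ < 1 := by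
    rw [hρ]
    have : (0 : ℝ) < 1 / 2 ^ k := by positivity
    linarith
  set τ : ℝ := Real.sqrt ρ with hτ
  have hτ0 : 0 < τ := Real.sqrt_pos.2 hρ0
  have hτ2 : τ ^ 2 = ρ := Real.sq_sqrt hρ0.le
  have hτ1 : τ < 1 := by
    rw [hτ, Real.sqrt_lt' one_pos]
    simpa using hρ1
  obtain ⟨c0, hc0⟩ := exists_pow_lt_of_lt_one (by norm_num : (0 : ℝ) < 1 / 2) hτ1
  -- summability of `(2 m + 1) x ^ m`
  have hsumm : ∀ x : ℝ, 0 < x → x < 1 → Summable (fun m : ℕ => (2 * (m : ℝ) + 1) * x ^ m) := by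
    intro x hx0 hx1
    have hx : ‖x‖ < 1 := by rwa [Real.norm_of_nonneg hx0.le]
    have h1 : Summable (fun m : ℕ => (m : ℝ) ^ 1 * x ^ m) :=
      summable_pow_mul_geometric_of_norm_lt_one 1 hx
    have h2 : Summable (fun m : ℕ => x ^ m) := summable_geometric_of_lt_one hx0.le hx1
    refine ((h1.mul_left 2).add h2).congr fun m => ?_
    ring
  refine ⟨c0, ∑' j : ℕ, (2 * (j : ℝ) + 1) * τ ^ j, by positivity, fun n hn => ?_⟩
  have hle := fun m => satProb_le hn m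
  have hnn := fun m => satProb_nonneg k n m
  have hS2 : Summable (fun m : ℕ => (2 * (m : ℝ) + 1) * satProb k n m) := by
    refine Summable.of_nonneg_of_le (fun m => by have := hnn m; positivity) (fun m => ?_)
      ((hsumm ρ hρ0 hρ1).mul_left (2 ^ n))
    have h := mul_le_mul_of_nonneg_left (hle m) (by positivity : (0 : ℝ) ≤ 2 * (m : ℝ) + 1)
    refine h.trans_eq ?_
    rw [← hρ]
    ring
  refine ⟨?_, hS2, ?_⟩
  · refine Summable.of_nonneg_of_le hnn (fun m => ?_) hS2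
    have := hnn m
    have h0 : (0 : ℝ) ≤ (m : ℝ) := Nat.cast_nonneg m
    nlinarith
  · intro M hM
    have hcM : c0 * n ≤ M := by exact_mod_cast hM
    have hT := hsumm τ hτ0 hτ1
    have hbound : ∀ m : ℕ, (2 * ((m + M : ℕ) : ℝ) + 1) * satProb k n (m + M) ≤
        (2 * ((m + M : ℕ) : ℝ) + 1) * τ ^ (m + M) := by
      intro m
      refine mul_le_mul_of_nonneg_left ?_ (by positivity)
      refine (hle (m + M)).trans ?_
      rw [← hρ, ← hτ2, ← pow_mul, mul_comm 2 (m + M), pow_mul, pow_two, ← mul_assoc]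
      have h1 : (2 : ℝ) ^ n * τ ^ (m + M) ≤ 1 := by
        have h2 : τ ^ (m + M) ≤ τ ^ (c0 * n) :=
          pow_le_pow_of_le_one hτ0.le hτ1.le (by omega)
        calc (2 : ℝ) ^ n * τ ^ (m + M) ≤ 2 ^ n * τ ^ (c0 * n) := by gcongr
          _ = (2 * τ ^ c0) ^ n := by rw [pow_mul, mul_pow]
          _ ≤ 1 := pow_le_one₀ (by positivity) (by linarith)
      calc (2 : ℝ) ^ n * τ ^ (m + M) * τ ^ (m + M) ≤ 1 * τ ^ (m + M) := by gcongr
        _ = τ ^ (m + M) := one_mul _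
    have hS2' : Summable (fun m : ℕ => (2 * ((m + M : ℕ) : ℝ) + 1) * satProb k n (m + M)) :=
      (summable_nat_add_iff (f := fun m : ℕ => (2 * (m : ℝ) + 1) * satProb k n m) M).2 hS2
    have hT' : Summable (fun m : ℕ => (2 * ((m + M : ℕ) : ℝ) + 1) * τ ^ (m + M)) :=
      (summable_nat_add_iff (f := fun m : ℕ => (2 * (m : ℝ) + 1) * τ ^ m) M).2 hT
    refine (hS2'.tsum_le_tsum hbound hT').trans ?_
    have h3 := hT.sum_add_tsum_nat_add M
    have h4 : 0 ≤ ∑ i ∈ range M, (2 * (i : ℝ) + 1) * τ ^ i :=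
      Finset.sum_nonneg fun i _ => by positivity
    linarith

end Crest.Agent.RS
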