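import Mathlib
import Crest.Agent.RS.Avg

/-! Chunk R153-EFRON: Efron-Stein inequality for lists. -/

set_option autoImplicit false

namespace Crest.Agent.RS

open Finset

/-- Efron-Stein. `g i` is any function of the list with the `i`-th entry removed.
Proof: induction on `M` (generalising `f`, `g`). `Var f = E_a Var(f (a :: ·)) + Var_a (E_L f (a :: L))`.
The first part: induction hypothesis for `f (a :: ·)` and `g' i L = g (i+1) (a :: L)`
(`(a :: L).eraseIdx (i+1) = a :: L.eraseIdx i`). The second: `Var_a h ≤ avg (h a - c)^2` with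
`h a = E_L f (a :: L)`, `c = E_L (g 0 L)`, and `(h a - c)^2 ≤ E_L (f (a::L) - g 0 L)^2` (`lavg_sq_le`). -/
theorem efron_stein {α : Type*} [Fintype α] [Nonempty α] (M : ℕ) (f : List α → ℝ)
    (g : ℕ → List α → ℝ) :
    lavg α M (fun L => f L ^ 2) - (lavg α M f) ^ 2 ≤
      ∑ i ∈ range M, lavg α M (fun L => (f L - g i (L.eraseIdx i)) ^ 2) := by
  induction M generalizing f g with
  | zero => simp
  | succ M ih =>
    set h : α → ℝ := fun a => lavg α M (fun L => f (a :: L)) with hh
    have hf : lavg α (M + 1) f = avg h := rfl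
    have e1 : lavg α (M + 1) (fun L => f L ^ 2) - (lavg α (M + 1) f) ^ 2 =
        avg (fun a => lavg α M (fun L => f (a :: L) ^ 2) - (h a) ^ 2) +
          (avg (fun a => h a ^ 2) - (avg h) ^ 2) := by
      rw [avg_sub, hf, lavg_succ]
      ring
    rw [e1, Finset.sum_range_succ']
    refine add_le_add ?_ ?_
    · calc avg (fun a => lavg α M (fun L => f (a :: L) ^ 2) - (h a) ^ 2)
          ≤ avg (fun a => ∑ i ∈ range M,
              lavg α M (fun L => (f (a :: L) - g (i + 1) (a :: L.eraseIdx i)) ^ 2)) :=
            avg_mono fun a => ih (fun L => f (a :: L)) (fun i L => g (i + 1) (a :: L))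
        _ = _ := by
            rw [avg_sum]
            rfl
    · set c : ℝ := lavg α M (g 0) with hc
      calc avg (fun a => h a ^ 2) - (avg h) ^ 2 ≤ avg (fun a => (h a - c) ^ 2) := by
            have : ∀ a, (h a - c) ^ 2 = h a ^ 2 - (2 * c) * h a + c ^ 2 := fun a => by ring
            rw [avg_congr this, avg_add, avg_sub, avg_mul_left, avg_const]
            nlinarith [sq_nonneg (avg h - c)]
        _ ≤ avg (fun a => lavg α M (fun L => (f (a :: L) - g 0 L) ^ 2)) := by
            refine avg_mono fun a => ?_
            have : h a - c = lavg α M (fun L => f (a :: L) - g 0 L) := (lavg_sub M _ _).symm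
            rw [this]
            exact lavg_sq_le _ _
        _ = _ := rfl

end Crest.Agent.RS
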